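import Vale.Agent.P271.H.Meas

/-! P271 G/Poly: negative powers of polynomials are locally integrable.

Plan. `lint_disc`: `|w - r| ^ (-2 δ) ≤ 1` off `ball r 1`; on it translate to `0` and use
`integrableOn_ball_of_norm_le_rpow` or `Complex.lintegral_comp_polarCoord_symm`. `lint_poly_one`:
`P = C (leadingCoeff) * ∏ (X - r i)` with `m ≤ k` roots, `∏ u i ≤ ∑ u i ^ m ≤ ∑ (1 + u i ^ k)` (or `1` if
`m = 0`). `lint_poly`: induction on `n` with `MvPolynomial.finSuccEquiv`; the leading coefficient is a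
nonzero polynomial of total degree at most `k` (`totalDegree_coeff_finSuccEquiv_add_le`); where it
vanishes the bound is `⊤`. Fubini: `volume_preserving_piFinSuccAbove`, `lintegral_prod`; a ball in
the sup norm is a product of discs. `not_ni_poly`: `lint_sheet`. Auxiliary names start with
`poly_`. -/

open MeasureTheory Set Filter Topology
open scoped ContDiff ENNReal ComplexConjugate

noncomputable section

namespace Vale.Agent.P271

theorem poly_unit {δ : ℝ} (h1 : δ < 1) :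
    ∫⁻ w in Metric.ball (0 : ℂ) 1, ENNReal.ofReal (‖w‖ ^ 2) ^ (-δ) ≠ ⊤ := by
  have hi : IntegrableOn (fun w : ℂ => ‖w‖ ^ (-(2 * δ))) (Metric.ball 0 1) volume := by
    refine integrableOn_ball_of_norm_le_rpow (C := 1) (α := 2 * δ) (by simp) (by simp; linarith)
      (Eventually.of_forall fun w => ?_) (Measurable.aestronglyMeasurable (by fun_prop))
    rw [one_mul, Real.norm_of_nonneg (Real.rpow_nonneg (norm_nonneg _) _)]
  refine (lt_of_eq_of_lt ?_ hi.lintegral_lt_top).ne
  refine lintegral_congr_ae (ae_restrict_of_ae ?_)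
  have : ∀ᵐ w : ℂ, w ≠ 0 := by
    rw [ae_iff]
    simp
  filter_upwards [this] with w hw
  have hw' : 0 < ‖w‖ := norm_pos_iff.2 hw
  rw [ENNReal.ofReal_rpow_of_pos (by positivity), ← Real.rpow_natCast, ← Real.rpow_mul hw'.le]
  norm_num

theorem poly_meas {α : Type} [MeasurableSpace α] {f : α → ℂ} (hf : Measurable f) (δ : ℝ) :
    Measurable fun w => ENNReal.ofReal (‖f w‖ ^ 2) ^ δ :=
  (hf.norm.pow_const 2).ennreal_ofReal.pow_const δ

theorem lint_disc {δ : ℝ} (h0 : 0 ≤ δ) (h1 : δ < 1) (R : ℝ) : ∃ C : ℝ≥0∞, C ≠ ⊤ ∧ ∀ r : ℂ,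
    ∫⁻ w in Metric.ball (0 : ℂ) R, ENNReal.ofReal (‖w - r‖ ^ 2) ^ (-δ) ≤ C := by
  refine ⟨_, ENNReal.add_ne_top.2 ⟨(measure_ball_lt_top (μ := volume) (x := (0 : ℂ)) (r := R)).ne,
    poly_unit h1⟩, fun r => ?_⟩
  have hb : ∀ w : ℂ, ENNReal.ofReal (‖w - r‖ ^ 2) ^ (-δ) ≤ 1 +
      (Metric.ball (0 : ℂ) 1).indicator (fun w => ENNReal.ofReal (‖w‖ ^ 2) ^ (-δ)) (w - r) := by
    intro w
    by_cases hw : w - r ∈ Metric.ball (0 : ℂ) 1
    · rw [indicator_of_mem hw]
      exact le_add_self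
    · rw [indicator_of_notMem hw, add_zero]
      rw [mem_ball_zero_iff, not_lt] at hw
      exact (ENNReal.rpow_le_rpow_of_exponent_le (ENNReal.one_le_ofReal.2 (one_le_pow₀ hw))
        (neg_nonpos.2 h0)).trans_eq ENNReal.rpow_zero
  refine (lintegral_mono hb).trans ?_
  rw [lintegral_add_left measurable_const, setLIntegral_one]
  refine add_le_add le_rfl ((setLIntegral_le_lintegral _ _).trans (le_of_eq ?_))
  rw [lintegral_sub_right_eq_self
    ((Metric.ball (0 : ℂ) 1).indicator fun w => ENNReal.ofReal (‖w‖ ^ 2) ^ (-δ)) r,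
    lintegral_indicator Metric.isOpen_ball.measurableSet]

theorem poly_prod {ι : Type} [Fintype ι] {k : ℕ} (hk : Fintype.card ι ≤ k) (u : ι → ℝ≥0∞) :
    ∏ i, u i ≤ 1 + ∑ i, u i ^ k := by
  rcases isEmpty_or_nonempty ι with h | h
  · simp
  obtain ⟨j, -, hj⟩ := Finset.exists_max_image Finset.univ u Finset.univ_nonempty
  refine (Finset.prod_le_pow_card _ _ (u j) hj).trans ?_
  rcases le_total (u j) 1 with h1 | h1
  · exact (pow_le_one' h1 _).trans le_self_add
  · refine (pow_le_pow_right' h1 hk).trans (le_add_left ?_)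
    exact Finset.single_le_sum (f := fun i => u i ^ k) (fun _ _ => zero_le) (Finset.mem_univ j)

theorem lint_poly_one {k : ℕ} {γ : ℝ} (h0 : 0 < γ) (h1 : γ * k < 1) (R : ℝ) :
    ∃ C : ℝ≥0∞, C ≠ ⊤ ∧ C ≠ 0 ∧ ∀ P : Polynomial ℂ, P ≠ 0 → P.natDegree ≤ k →
      ∫⁻ w in Metric.ball (0 : ℂ) R, ENNReal.ofReal (‖P.eval w‖ ^ 2) ^ (-γ) ≤
        C * ENNReal.ofReal (‖P.leadingCoeff‖ ^ 2) ^ (-γ) := by
  obtain ⟨C, hC, hb⟩ := lint_disc (δ := γ * k) (by positivity) h1 R
  have hv := (measure_ball_lt_top (μ := volume) (x := (0 : ℂ)) (r := R)).ne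
  refine ⟨1 + (volume (Metric.ball (0 : ℂ) R) + k * C), by finiteness, by simp, fun P _ hk => ?_⟩
  have hc : Fintype.card P.roots ≤ k := by
    rw [Multiset.card_coe]
    exact (Polynomial.card_roots' P).trans hk
  have e : ∀ w, ENNReal.ofReal (‖P.eval w‖ ^ 2) ^ (-γ) ≤
      (1 + ∑ r : P.roots, ENNReal.ofReal (‖w - r‖ ^ 2) ^ (-(γ * k))) *
        ENNReal.ofReal (‖P.leadingCoeff‖ ^ 2) ^ (-γ) := by
    intro w
    rw [(IsAlgClosed.splits P).eval_eq_prod_roots, ← Multiset.map_univ, ← Finset.prod_eq_multiset_prod,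
      norm_mul, mul_pow, ENNReal.ofReal_mul (sq_nonneg _),
      ENNReal.mul_rpow_of_ne_top ENNReal.ofReal_ne_top ENNReal.ofReal_ne_top, mul_comm, norm_prod,
      ← Finset.prod_pow, ENNReal.ofReal_prod_of_nonneg (fun _ _ => sq_nonneg _),
      ← ENNReal.prod_rpow_of_ne_top (fun _ _ => ENNReal.ofReal_ne_top)]
    refine mul_le_mul_left ((poly_prod hc _).trans (le_of_eq ?_)) _
    simp only [← ENNReal.rpow_natCast, ← ENNReal.rpow_mul, neg_mul]
  refine (lintegral_mono e).trans ?_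
  have hm : ∀ r : ℂ, Measurable fun w => ENNReal.ofReal (‖w - r‖ ^ 2) ^ (-(γ * k)) := fun r =>
    poly_meas (measurable_id.sub_const r) _
  rw [lintegral_mul_const _ (Measurable.const_add (Finset.measurable_sum _ fun r _ => hm _) _),
    lintegral_add_left measurable_const, setLIntegral_one,
    lintegral_finsetSum _ fun (r : P.roots) _ => hm r]
  refine mul_le_mul_left (le_add_left (add_le_add le_rfl ?_)) _
  refine (Finset.sum_le_card_nsmul _ _ C fun r _ => hb _).trans ?_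
  rw [nsmul_eq_mul, Finset.card_univ]
  exact mul_le_mul_left (Nat.cast_le.2 hc) _

theorem lint_poly {k : ℕ} {γ : ℝ} (h0 : 0 < γ) (h1 : γ * k < 1) (R : ℝ) (n : ℕ)
    (P : MvPolynomial (Fin n) ℂ) (hP : P ≠ 0) (hk : P.totalDegree ≤ k) :
    ∫⁻ y in Metric.ball (0 : E n) R,
      ENNReal.ofReal (‖MvPolynomial.eval y P‖ ^ 2) ^ (-γ) ≠ ⊤ := by
  obtain ⟨C, hC, hC0, hb⟩ := lint_poly_one h0 h1 R
  induction n with
  | zero =>
    rw [P.eq_C_of_isEmpty] at hP ⊢
    simp only [MvPolynomial.eval_C, setLIntegral_const]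
    have hc : MvPolynomial.coeff 0 P ≠ 0 := fun h => hP (by rw [h, map_zero])
    refine ENNReal.mul_ne_top ?_ measure_ball_lt_top.ne
    rw [ENNReal.ofReal_rpow_of_pos (by positivity)]
    exact ENNReal.ofReal_ne_top
  | succ n ih =>
    set Q := MvPolynomial.finSuccEquiv ℂ n P with hQ
    have hQ0 : Q ≠ 0 := by simpa [hQ] using hP
    have hL : Q.leadingCoeff ≠ 0 := Polynomial.leadingCoeff_ne_zero.2 hQ0
    have hLk : Q.leadingCoeff.totalDegree ≤ k :=
      (le_self_add.trans (MvPolynomial.totalDegree_coeff_finSuccEquiv_add_le P _ hL)).trans hk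
    have hQk : Q.natDegree ≤ k :=
      (le_add_self.trans (MvPolynomial.totalDegree_coeff_finSuccEquiv_add_le P _ hL)).trans hk
    have hp := (volume_preserving_piFinSuccAbove (fun _ : Fin (n + 1) => ℂ) 0).symm
    set e := (MeasurableEquiv.piFinSuccAbove (fun _ : Fin (n + 1) => ℂ) 0).symm with he
    have e1 : ∀ q : ℂ × E n, e q = Fin.cons q.1 q.2 := fun q => by
      simp [he, MeasurableEquiv.piFinSuccAbove, Fin.insertNthEquiv]
    have hm : Measurable fun y : E (n + 1) =>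
        ENNReal.ofReal (‖MvPolynomial.eval y P‖ ^ 2) ^ (-γ) :=
      poly_meas (MvPolynomial.continuous_eval P).measurable _
    have hs : e ⁻¹' Metric.ball 0 R ⊆ Metric.ball 0 R ×ˢ Metric.ball 0 R := by
      intro q hq
      rw [mem_preimage, mem_ball_zero_iff, e1] at hq
      have hR : 0 < R := (norm_nonneg _).trans_lt hq
      rw [pi_norm_lt_iff hR] at hq
      exact ⟨mem_ball_zero_iff.2 (hq 0), mem_ball_zero_iff.2
        ((pi_norm_lt_iff hR).2 fun i => hq i.succ)⟩
    rw [← hp.setLIntegral_comp_preimage_emb e.measurableEmbedding]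
    refine ne_top_of_le_ne_top (ENNReal.mul_ne_top hC (ih _ hL hLk))
      ((lintegral_mono_set hs).trans ?_)
    rw [Measure.volume_eq_prod, setLIntegral_prod_symm _
      (by exact (hm.comp e.measurable).aemeasurable),
      ← lintegral_const_mul' _ _ hC]
    refine lintegral_mono fun s => ?_
    by_cases hz : MvPolynomial.eval s Q.leadingCoeff = 0
    · simp [hz, ENNReal.zero_rpow_of_neg (neg_neg_of_pos h0), ENNReal.mul_top hC0]
    · have := hb (Q.map (MvPolynomial.eval s))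
        (by
          rw [← Polynomial.leadingCoeff_ne_zero, Polynomial.leadingCoeff_map_of_leadingCoeff_ne_zero _ hz]
          exact hz) (Polynomial.natDegree_map_le.trans hQk)
      rw [Polynomial.leadingCoeff_map_of_leadingCoeff_ne_zero _ hz] at this
      simpa only [e1, MvPolynomial.eval_eq_eval_mv_eval'] using this

namespace EtDom

variable {n : ℕ} {Ω : Type} [TopologicalSpace Ω] [T2Space Ω] [SecondCountableTopology Ω]
  [MeasurableSpace Ω] [BorelSpace Ω] {D : EtDom n Ω}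

theorem not_ni_poly {k : ℕ} {γ : ℝ} (h0 : 0 < γ) (h1 : γ * k < 1) {P : MvPolynomial (Fin n) ℂ}
    (hP : P ≠ 0) (hk : P.totalDegree ≤ k) (z : Ω) :
    ¬D.NI (fun w => ‖MvPolynomial.eval (D.π w) P‖ ^ 2) z γ := by
  intro h
  have ho : IsOpen ((D.ch z).source ∩ D.π ⁻¹' Metric.ball 0 (‖D.π z‖ + 1)) :=
    (D.ch z).open_source.inter (Metric.isOpen_ball.preimage continuous_π)
  have h2 := h _ (ho.mem_nhds ⟨D.mem z, mem_ball_zero_iff.2 (lt_add_one _)⟩)
  rw [lint_sheet z ho.measurableSet inter_subset_left (by exact (poly_meas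
    ((MvPolynomial.continuous_eval P).comp continuous_π).measurable _).aemeasurable)] at h2
  refine lint_poly h0 h1 (‖D.π z‖ + 1) n P hP hk (top_le_iff.1 (h2.ge.trans ?_))
  have hm := meas_img (D.ch z) ho.measurableSet inter_subset_left
  rw [D.coe] at hm
  refine (setLIntegral_congr_fun hm (g := fun y =>
    ENNReal.ofReal (‖MvPolynomial.eval y P‖ ^ 2) ^ (-γ)) ?_).le.trans (lintegral_mono_set ?_)
  · rintro _ ⟨w, hw, rfl⟩
    have := (D.ch z).left_inv hw.1
    rw [D.coe] at this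
    simp only [loc, Function.comp, this]
  · rintro _ ⟨w, hw, rfl⟩
    exact hw.2

end EtDom

end Vale.Agent.P271
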