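import Vale.Agent.P271.G.Basic

/-! P271 G/Vol: functions in the multiplier ideal can be added with small weight.

Plan. Put `E = G`, `F = ∑ |g l| ^ (2 / γ)`. Suppose `(E + F) ^ (-γ₁)` has finite integral near `z` for
some `γ₁ > c`; by `NI.mono` assume `γ₁ ≤ c' - N γ`. Pointwise on a neighbourhood where `E ≤ B`:
if `F ≤ E` then `E ^ (-γ₁) ≤ 2 ^ γ₁ (E + F) ^ (-γ₁)`; otherwise some `|g l| ^ (2 / γ) > E / r`
(`r` the number of indices), so `g l ≠ 0`, `E ^ (N γ) ≤ r ^ (N γ) |g l| ^ (2 N)` and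
`E ^ (-γ₁) ≤ C |g l| ^ (2 N) E ^ (-c')` (if `E = 0` the right side is `⊤`). Sum up with
`lintegral_add_left'`, `lintegral_finset_sum'` on an open set where all functions are continuous.
Auxiliary names start with `vol_`. -/

open MeasureTheory Set Filter Topology
open scoped ContDiff ENNReal ComplexConjugate

noncomputable section

namespace Vale.Agent.P271

namespace EtDom

variable {n : ℕ} {Ω : Type} [TopologicalSpace Ω] [T2Space Ω] [SecondCountableTopology Ω]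
  [MeasurableSpace Ω] [BorelSpace Ω] {D : EtDom n Ω}

theorem vol_two {x y γ : ℝ} (hγ : 0 ≤ γ) (h : y ≤ 2 * x) :
    ENNReal.ofReal x ^ (-γ) ≤ ENNReal.ofReal 2 ^ γ * ENNReal.ofReal y ^ (-γ) := by
  have h0 : ENNReal.ofReal 2 ≠ 0 := (ENNReal.ofReal_pos.2 two_pos).ne'
  have h1 := gb_anti (ENNReal.ofReal_le_ofReal h) hγ
  rw [ENNReal.ofReal_mul two_pos.le,
    ENNReal.mul_rpow_of_ne_top ENNReal.ofReal_ne_top ENNReal.ofReal_ne_top] at h1
  refine le_trans (le_of_eq ?_) (mul_le_mul_right h1 _)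
  rw [← mul_assoc, ← ENNReal.rpow_add _ _ h0 ENNReal.ofReal_ne_top, add_neg_cancel,
    ENNReal.rpow_zero, one_mul]

theorem vol_one {E B r γ γ₀ c' : ℝ} {N : ℕ} {a : ℂ} (hE : 0 ≤ E) (hB : E ≤ B) (hB0 : 0 < B)
    (hr : 0 < r) (hγ : 0 < γ) (h0 : 0 < γ₀) (h1 : γ₀ ≤ c' - N * γ) (h : E < r * ‖a‖ ^ (2 / γ)) :
    ENNReal.ofReal E ^ (-γ₀) ≤ ENNReal.ofReal (B ^ (c' - N * γ - γ₀) * r ^ (N * γ)) *
      (ENNReal.ofReal (‖a ^ N‖ ^ 2) * ENNReal.ofReal E ^ (-c')) := by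
  have hN : 0 ≤ N * γ := by positivity
  have ha : a ≠ 0 := by
    rintro rfl
    rw [norm_zero, Real.zero_rpow (by positivity), mul_zero] at h
    exact h.not_ge hE
  have ha' : 0 < ‖a ^ N‖ ^ 2 := pow_pos (norm_pos_iff.2 (pow_ne_zero N ha)) 2
  rcases hE.eq_or_lt with rfl | hE'
  · rw [ENNReal.ofReal_zero, ENNReal.zero_rpow_of_neg (y := -c') (by linarith),
      ENNReal.mul_top (ENNReal.ofReal_pos.2 ha').ne',
      ENNReal.mul_top (ENNReal.ofReal_pos.2 (by positivity)).ne']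
    exact le_top
  · rw [ENNReal.ofReal_rpow_of_pos hE', ENNReal.ofReal_rpow_of_pos hE',
      ← ENNReal.ofReal_mul ha'.le, ← ENNReal.ofReal_mul (by positivity)]
    refine ENNReal.ofReal_le_ofReal ?_
    have e1 : E ^ (-γ₀) = E ^ (c' - N * γ - γ₀) * E ^ (N * γ) * E ^ (-c') := by
      rw [← Real.rpow_add hE', ← Real.rpow_add hE']
      congr 1
      ring
    have e2 : E ^ (c' - N * γ - γ₀) ≤ B ^ (c' - N * γ - γ₀) :=
      Real.rpow_le_rpow hE hB (by linarith)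
    have e3 : E ^ (N * γ) ≤ r ^ (N * γ) * ‖a ^ N‖ ^ 2 := by
      refine (Real.rpow_le_rpow hE h.le hN).trans (le_of_eq ?_)
      rw [Real.mul_rpow hr.le (by positivity), ← Real.rpow_mul (norm_nonneg _),
        show 2 / γ * (N * γ) = ((N * 2 : ℕ) : ℝ) by push_cast; field_simp, Real.rpow_natCast,
        norm_pow, pow_mul]
    rw [e1]
    calc _ ≤ B ^ (c' - N * γ - γ₀) * (r ^ (N * γ) * ‖a ^ N‖ ^ 2) * E ^ (-c') := by gcongr
      _ = _ := by ring

theorem vol_pt {ι : Type} [Fintype ι] {E B γ γ₀ c' : ℝ} {N : ℕ} (a : ι → ℂ) (hE : 0 ≤ E)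
    (hB : E ≤ B) (hB0 : 0 < B) (hγ : 0 < γ) (h0 : 0 < γ₀) (h1 : γ₀ ≤ c' - N * γ) :
    ENNReal.ofReal E ^ (-γ₀) ≤
      ENNReal.ofReal 2 ^ γ₀ * ENNReal.ofReal (E + ∑ l, ‖a l‖ ^ (2 / γ)) ^ (-γ₀) +
      ENNReal.ofReal (B ^ (c' - N * γ - γ₀) * ((Fintype.card ι : ℝ) + 1) ^ (N * γ)) *
        ∑ l, ENNReal.ofReal (‖a l ^ N‖ ^ 2) * ENNReal.ofReal E ^ (-c') := by
  by_cases hl : ∃ l, E < ((Fintype.card ι : ℝ) + 1) * ‖a l‖ ^ (2 / γ)
  · obtain ⟨l, hl⟩ := hl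
    refine le_add_left ((vol_one hE hB hB0 (by positivity) hγ h0 h1 hl).trans ?_)
    exact mul_le_mul_right (Finset.single_le_sum
      (f := fun l => ENNReal.ofReal (‖a l ^ N‖ ^ 2) * ENNReal.ofReal E ^ (-c'))
      (fun _ _ => zero_le) (Finset.mem_univ l)) _
  · refine le_add_right (vol_two h0.le ?_)
    have h2 := Finset.sum_le_sum (s := Finset.univ) fun l _ => not_lt.1 (not_exists.1 hl l)
    rw [← Finset.mul_sum, Finset.sum_const, Finset.card_univ, nsmul_eq_mul] at h2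
    have h3 : (0 : ℝ) < (Fintype.card ι : ℝ) + 1 := by positivity
    have h4 : ∑ l, ‖a l‖ ^ (2 / γ) ≤ E := le_of_mul_le_mul_left (by linarith) h3
    linarith

theorem adm_vol {G : Ω → ℝ} {z : Ω} {c c' γ : ℝ} {N : ℕ} (hG : ∀ᶠ w in 𝓝 z, ContinuousAt G w)
    (G0 : ∀ w, 0 ≤ G w) (hc : 0 ≤ c) (h : D.Adm G z c) {ι : Type} [Fintype ι] {g : ι → Ω → ℂ}
    (hg : ∀ l, Continuous (g l)) (hγ : 0 < γ) (hcc : c + N * γ < c')
    (hint : ∀ l, ∃ U ∈ 𝓝 z,
      ∫⁻ w in U, ENNReal.ofReal (‖g l w ^ N‖ ^ 2) * ENNReal.ofReal (G w) ^ (-c') ∂D.ν ≠ ⊤) :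
    D.Adm (fun w => G w + wE g (fun _ => γ) w) z c := by
  intro γ₁ hγ₁
  have hz : ContinuousAt G z := hG.self_of_nhds
  have hs : ContinuousAt (fun w => G w + wE g (fun _ => γ) w) z :=
    hz.add (wE_continuousAt g _ z fun l => (hg l).continuousAt)
  have hc0 : c < min γ₁ (c' - N * γ) := lt_min hγ₁ (by linarith)
  have h1 : min γ₁ (c' - N * γ) ≤ c' - N * γ := min_le_right _ _
  refine NI.mono (γ := min γ₁ (c' - N * γ)) ?_ (hc.trans hc0.le) (min_le_left _ _)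
    ((hs.eventually_lt_const (lt_add_one _)).mono fun w hw => hw.le)
  generalize min γ₁ (c' - N * γ) = γ₀ at hc0 h1
  have h0 : 0 < γ₀ := hc.trans_lt hc0
  intro M hM
  choose V hV hV' using hint
  have hB : ∀ᶠ w in 𝓝 z, G w < G z + 1 := hz.eventually_lt_const (lt_add_one _)
  obtain ⟨U, hU, ho, hzU⟩ := mem_nhds_iff.1
    (inter_mem (inter_mem hM (iInter_mem.2 hV)) (inter_mem hG hB))
  by_contra hne
  have hm : AEMeasurable G (D.ν.restrict U) :=
    ContinuousOn.aemeasurable (fun w hw => (hU hw).2.1.continuousWithinAt) ho.measurableSet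
  have hk : ∀ l, AEMeasurable (fun w => ENNReal.ofReal (‖g l w ^ N‖ ^ 2) *
      ENNReal.ofReal (G w) ^ (-c')) (D.ν.restrict U) := fun l =>
    (((hg l).pow N).norm.pow 2).measurable.ennreal_ofReal.aemeasurable.mul
      (hm.ennreal_ofReal.pow_const _)
  have h2 := setLIntegral_mono' (μ := D.ν) ho.measurableSet fun w hw =>
    vol_pt (fun l => g l w) (G0 w) (le_of_lt (hU hw).2.2) (by linarith [G0 z]) hγ h0 h1
  rw [h γ₀ hc0 U (ho.mem_nhds hzU), top_le_iff, lintegral_add_right' _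
    ((Finset.aemeasurable_fun_sum _ fun l _ => hk l).const_mul _),
    lintegral_const_mul' _ _ (ENNReal.rpow_ne_top_of_nonneg h0.le ENNReal.ofReal_ne_top),
    lintegral_const_mul' _ _ ENNReal.ofReal_ne_top, lintegral_finsetSum' _ fun l _ => hk l] at h2
  refine ENNReal.add_ne_top.2 ⟨ENNReal.mul_ne_top
    (ENNReal.rpow_ne_top_of_nonneg h0.le ENNReal.ofReal_ne_top) (ne_top_of_le_ne_top hne ?_),
    ENNReal.mul_ne_top ENNReal.ofReal_ne_top (ENNReal.sum_ne_top.2 fun l _ =>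
      ne_top_of_le_ne_top (hV' l) (lintegral_mono_set fun w hw => mem_iInter.1 (hU hw).1.2 l))⟩ h2
  simp only [wE, if_pos hγ]
  exact lintegral_mono_set fun w hw => (hU hw).1.1

end EtDom

end Vale.Agent.P271
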