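import Vale.Agent.P271.H.Meas

/-! P271 G/Basic: elementary facts on `wE`, `NI`, `Adm`.

Plan. `NI.of_le`: shrink the neighbourhood (`lintegral_mono_set`), pointwise
`ofReal G ^ (-γ) ≤ ofReal C ^ γ * ofReal G' ^ (-γ)`, `lintegral_const_mul'`; use `setLIntegral_mono'`
on an open subset. `NI.mono`: `G ≤ B` near `z`, `ofReal G ^ (-γ) ≤ ofReal B ^ (γ' - γ) * ofReal G ^ (-γ')`.
`NI.nonpos`: otherwise `G ≥ G z / 2 > 0` on a compact neighbourhood, which has finite measure.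
`meas_le_of_lint`: `mul_meas_ge_le_lintegral₀` for `ν.restrict N`. `ni_pole`: for small `r` the
preimage of `ball (π z) r` in the sheet has measure `c r ^ (2 n)` (`ν_ch`, `Measure.addHaar_ball`) and
there `G ≤ (n + 1) r ^ 2`, so the integral is at least `c' r ^ (-2)`. Auxiliary names start with `gb_`. -/

open MeasureTheory Set Filter Topology
open scoped ContDiff ENNReal ComplexConjugate

noncomputable section

namespace Vale.Agent.P271

section

variable {Ω ι : Type} [Fintype ι] (s : ι → Ω → ℂ) (a : ι → ℝ) (z : Ω)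

omit [Fintype ι] in
theorem gb_term (i : ι) : 0 ≤ if 0 < a i then ‖s i z‖ ^ (2 / a i) else 0 := by
  split_ifs
  · positivity
  · exact le_rfl

theorem wE_nonneg : 0 ≤ wE s a z := Finset.sum_nonneg fun i _ => gb_term s a z i

theorem sq_le_wE {i : ι} (hi : 0 < a i) : ‖s i z‖ ^ 2 ≤ wE s a z ^ a i := by
  have h1 : ‖s i z‖ ^ (2 / a i) ≤ wE s a z := by
    have := Finset.single_le_sum (fun j _ => gb_term s a z j) (Finset.mem_univ i)
    rwa [if_pos hi] at this
  have h2 := Real.rpow_le_rpow (by positivity) h1 hi.le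
  rwa [← Real.rpow_mul (norm_nonneg _), div_mul_cancel₀ _ hi.ne', Real.rpow_two] at h2

theorem wE_elim {ι' : Type} [Fintype ι'] (s' : ι' → Ω → ℂ) (a' : ι' → ℝ) :
    wE (Sum.elim s s') (Sum.elim a a') z = wE s a z + wE s' a' z := by
  rw [wE, Fintype.sum_sum_type]
  rfl

theorem wE_le {R : ℝ} (h : ∀ i, ‖s i z‖ ≤ R) : wE s a z ≤ ∑ i, max R 1 ^ (2 / a i) := by
  refine Finset.sum_le_sum fun i _ => ?_
  split_ifs with hi
  · exact Real.rpow_le_rpow (norm_nonneg _) ((h i).trans (le_max_left _ _)) (by positivity)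
  · positivity

theorem wE_one : wE s (fun _ => 1) z = ∑ i, ‖s i z‖ ^ 2 := by
  simp [wE]

theorem wE_continuousAt [TopologicalSpace Ω] (hs : ∀ i, ContinuousAt (s i) z) :
    ContinuousAt (wE s a) z := by
  refine tendsto_finsetSum _ fun i _ => ?_
  split_ifs with hi
  · exact (hs i).norm.rpow_const (.inr (by positivity))
  · exact tendsto_const_nhds

end

namespace EtDom

variable {n : ℕ} {Ω : Type} [TopologicalSpace Ω] [T2Space Ω] [SecondCountableTopology Ω]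
  [MeasurableSpace Ω] [BorelSpace Ω] {D : EtDom n Ω}

variable {G G' : Ω → ℝ} {z : Ω} {γ γ' c : ℝ}

omit [T2Space Ω] [SecondCountableTopology Ω] in
theorem gb_ni (h : D.NI G z γ) {C : ℝ≥0∞} (hC : C ≠ ⊤) (hle : ∀ᶠ w in 𝓝 z,
    ENNReal.ofReal (G w) ^ (-γ) ≤ C * ENNReal.ofReal (G' w) ^ (-γ')) : D.NI G' z γ' := by
  intro N hN
  obtain ⟨U, hU, ho, hz⟩ := mem_nhds_iff.1 (inter_mem hN hle)
  by_contra hne
  have h1 := setLIntegral_mono' (μ := D.ν) ho.measurableSet fun w hw => (hU hw).2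
  rw [h U (ho.mem_nhds hz), lintegral_const_mul' _ _ hC, top_le_iff] at h1
  exact ENNReal.mul_ne_top hC (ne_top_of_le_ne_top hne
    (lintegral_mono_set fun w hw => (hU hw).1)) h1

theorem gb_anti {x y : ℝ≥0∞} (h : x ≤ y) (hγ : 0 ≤ γ) : y ^ (-γ) ≤ x ^ (-γ) := by
  rw [ENNReal.rpow_neg, ENNReal.rpow_neg]
  exact ENNReal.inv_le_inv.2 (ENNReal.rpow_le_rpow h hγ)

theorem NI.of_le (h : D.NI G z γ) (hγ : 0 ≤ γ) {C : ℝ} (hC : 0 < C)
    (hle : ∀ᶠ w in 𝓝 z, G' w ≤ C * G w) : D.NI G' z γ := by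
  have h0 : ENNReal.ofReal C ≠ 0 := (ENNReal.ofReal_pos.2 hC).ne'
  refine gb_ni h (C := ENNReal.ofReal C ^ γ)
    (ENNReal.rpow_ne_top_of_nonneg hγ ENNReal.ofReal_ne_top) (hle.mono fun w hw => ?_)
  have h1 := gb_anti (ENNReal.ofReal_le_ofReal hw) hγ
  rw [ENNReal.ofReal_mul hC.le,
    ENNReal.mul_rpow_of_ne_top ENNReal.ofReal_ne_top ENNReal.ofReal_ne_top] at h1
  refine le_trans (le_of_eq ?_) (mul_le_mul_right h1 _)
  rw [← mul_assoc, ← ENNReal.rpow_add _ _ h0 ENNReal.ofReal_ne_top, add_neg_cancel,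
    ENNReal.rpow_zero, one_mul]

theorem NI.mono (h : D.NI G z γ) (h0 : 0 ≤ γ) (hγ : γ ≤ γ') {B : ℝ}
    (hB : ∀ᶠ w in 𝓝 z, G w ≤ B) : D.NI G z γ' := by
  have hb : ENNReal.ofReal (max B 1) ≠ 0 :=
    (ENNReal.ofReal_pos.2 (one_pos.trans_le (le_max_right _ _))).ne'
  refine gb_ni h (C := ENNReal.ofReal (max B 1) ^ (γ' - γ))
    (ENNReal.rpow_ne_top_of_nonneg (sub_nonneg.2 hγ) ENNReal.ofReal_ne_top)
    (hB.mono fun w hw => ?_)
  by_cases hg : ENNReal.ofReal (G w) = 0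
  · rcases (h0.trans hγ).eq_or_lt with h1 | h1
    · obtain rfl : γ = γ' := le_antisymm hγ (h1 ▸ h0)
      rw [sub_self, ENNReal.rpow_zero, one_mul]
    · rw [hg, ENNReal.zero_rpow_of_neg (neg_lt_zero.2 h1), ENNReal.mul_top
        (ENNReal.rpow_pos (pos_iff_ne_zero.2 hb) ENNReal.ofReal_ne_top).ne']
      exact le_top
  · rw [show -γ = γ' - γ + -γ' by ring, ENNReal.rpow_add _ _ hg ENNReal.ofReal_ne_top]
    exact mul_le_mul_left (ENNReal.rpow_le_rpow
      (ENNReal.ofReal_le_ofReal (hw.trans (le_max_left _ _))) (sub_nonneg.2 hγ)) _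

theorem NI.nonpos (h : D.NI G z γ) (hG : ContinuousAt G z) : G z ≤ 0 := by
  by_contra h0
  have := D.locallyCompact
  have := D.finiteOnCompacts
  have hc : ContinuousAt (fun w => ENNReal.ofReal (G w) ^ (-γ)) z :=
    ENNReal.continuous_rpow_const.continuousAt.comp
      (ENNReal.continuous_ofReal.continuousAt.comp hG)
  have hf : ENNReal.ofReal (G z) ^ (-γ) ≠ ⊤ := by
    rw [ENNReal.ofReal_rpow_of_pos (not_le.1 h0)]
    exact ENNReal.ofReal_ne_top
  obtain ⟨V, hzV, hV, hν⟩ := D.ν.exists_isOpen_measure_lt_top z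
  obtain ⟨U, hU, ho, hz⟩ := mem_nhds_iff.1 (inter_mem (hV.mem_nhds hzV)
    (hc.eventually_lt_const (ENNReal.lt_add_right hf one_ne_zero)))
  have h1 := setLIntegral_mono' (μ := D.ν) ho.measurableSet fun w hw => le_of_lt (hU hw).2
  rw [h U (ho.mem_nhds hz), setLIntegral_const, top_le_iff] at h1
  exact ENNReal.mul_ne_top (ENNReal.add_ne_top.2 ⟨hf, ENNReal.one_ne_top⟩)
    ((measure_mono fun w hw => (hU hw).1).trans_lt hν).ne h1

theorem ni_zero (hγ : 0 < γ) (hG : ∀ᶠ w in 𝓝 z, G w ≤ 0) : D.NI G z γ := by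
  intro N hN
  have := D.openPos
  obtain ⟨U, hU, ho, hz⟩ := mem_nhds_iff.1 (inter_mem hN hG)
  have h1 : ∫⁻ _ in U, ⊤ ∂D.ν ≤ ∫⁻ w in U, ENNReal.ofReal (G w) ^ (-γ) ∂D.ν :=
    setLIntegral_mono' ho.measurableSet fun w hw => by
      rw [ENNReal.ofReal_of_nonpos (hU hw).2, ENNReal.zero_rpow_of_neg (neg_lt_zero.2 hγ)]
  rw [setLIntegral_const, ENNReal.top_mul (ho.measure_ne_zero _ ⟨z, hz⟩)] at h1
  exact top_le_iff.1 (h1.trans (lintegral_mono_set fun w hw => (hU hw).1))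

theorem Adm.of_le (h : D.Adm G z c) (hc : 0 ≤ c) {C : ℝ} (hC : 0 < C)
    (hle : ∀ᶠ w in 𝓝 z, G' w ≤ C * G w) : D.Adm G' z c :=
  fun γ hγ => (h γ hγ).of_le (hc.trans hγ.le) hC hle

theorem meas_le_of_lint {N : Set Ω} (hN : IsOpen N) (hG : ContinuousOn G N) (hγ : 0 ≤ γ) (T : ℝ) :
    D.ν (N ∩ {w | G w ≤ Real.exp (-T)}) ≤
      ENNReal.ofReal (Real.exp (-(γ * T))) * ∫⁻ w in N, ENNReal.ofReal (G w) ^ (-γ) ∂D.ν := by
  have hS : MeasurableSet (N ∩ {w | G w ≤ Real.exp (-T)}) := by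
    have h1 := hN.measurableSet.diff
      (hG.isOpen_inter_preimage hN (isOpen_Ioi (a := Real.exp (-T)))).measurableSet
    have e : N ∩ {w | G w ≤ Real.exp (-T)} = N \ (N ∩ G ⁻¹' Ioi (Real.exp (-T))) := by
      ext w
      simp only [mem_inter_iff, mem_ofPred_eq, Set.mem_sdiff, mem_preimage, mem_Ioi, not_and,
        not_lt]
      tauto
    rwa [e]
  have h1 : ∫⁻ _ in N ∩ {w | G w ≤ Real.exp (-T)}, ENNReal.ofReal (Real.exp (γ * T)) ∂D.ν ≤
      ∫⁻ w in N ∩ {w | G w ≤ Real.exp (-T)}, ENNReal.ofReal (G w) ^ (-γ) ∂D.ν :=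
    setLIntegral_mono' hS fun w hw => by
      refine le_trans (le_of_eq ?_) (gb_anti (ENNReal.ofReal_le_ofReal hw.2) hγ)
      rw [ENNReal.ofReal_rpow_of_pos (Real.exp_pos _), ← Real.exp_mul]
      congr 2
      ring
  rw [setLIntegral_const] at h1
  refine le_trans (le_of_eq ?_)
    (mul_le_mul_right (h1.trans (lintegral_mono_set inter_subset_left)) _)
  rw [← mul_assoc, ← ENNReal.ofReal_mul (Real.exp_pos _).le, ← Real.exp_add, neg_add_cancel,
    Real.exp_zero, ENNReal.ofReal_one, one_mul]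

theorem ni_pole (z : Ω) : D.NI (fun w => ∑ j, ‖D.π w j - D.π z j‖ ^ 2) z (n + 1) := by
  intro N hN
  have ht : (D.ch z).target ∩ (D.ch z).symm ⁻¹' N ∈ 𝓝 (D.π z) := by
    refine inter_mem ((D.ch z).open_target.mem_nhds ?_) (tendsto_symm z hN)
    have := (D.ch z).map_source (D.mem z)
    rwa [D.coe] at this
  obtain ⟨r₀, hr₀, hb⟩ := Metric.mem_nhds_iff.1 ht
  set v := (volume (Metric.ball (0 : E n) 1)).toReal with hv
  have hv0 : 0 < v := ENNReal.toReal_pos (Metric.measure_ball_pos _ _ one_pos).ne'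
    measure_ball_lt_top.ne
  have key : ∀ r, 0 < r → r ≤ r₀ → ENNReal.ofReal (v / ((n + 1) ^ (n + 1) * r ^ 2)) ≤
      ∫⁻ w in N, ENNReal.ofReal (∑ j, ‖D.π w j - D.π z j‖ ^ 2) ^ (-((n : ℝ) + 1)) ∂D.ν := by
    intro r hr hr'
    have hb' := (Metric.ball_subset_ball hr').trans hb
    have ho : IsOpen ((D.ch z).source ∩ D.π ⁻¹' Metric.ball (D.π z) r) :=
      (D.ch z).open_source.inter (Metric.isOpen_ball.preimage continuous_π)
    have hsub : (D.ch z).source ∩ D.π ⁻¹' Metric.ball (D.π z) r ⊆ N := fun w hw => by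
      have h1 := (hb' hw.2).2
      have h2 := (D.ch z).left_inv hw.1
      rw [D.coe] at h2
      rwa [mem_preimage, h2] at h1
    have him : D.π '' ((D.ch z).source ∩ D.π ⁻¹' Metric.ball (D.π z) r) =
        Metric.ball (D.π z) r := by
      refine Subset.antisymm (by rintro _ ⟨w, hw, rfl⟩; exact hw.2) fun y hy => ?_
      have h2 := (D.ch z).right_inv (hb' hy).1
      rw [D.coe] at h2
      exact ⟨(D.ch z).symm y, ⟨(D.ch z).map_target (hb' hy).1, by rwa [mem_preimage, h2]⟩, h2⟩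
    have h1 : ∫⁻ _ in (D.ch z).source ∩ D.π ⁻¹' Metric.ball (D.π z) r,
        ENNReal.ofReal ((n + 1) * r ^ 2) ^ (-((n : ℝ) + 1)) ∂D.ν ≤
        ∫⁻ w in (D.ch z).source ∩ D.π ⁻¹' Metric.ball (D.π z) r,
          ENNReal.ofReal (∑ j, ‖D.π w j - D.π z j‖ ^ 2) ^ (-((n : ℝ) + 1)) ∂D.ν :=
      setLIntegral_mono' ho.measurableSet fun w hw => by
        refine gb_anti (ENNReal.ofReal_le_ofReal ?_) (by positivity)
        have h2 : ∀ j, ‖D.π w j - D.π z j‖ ^ 2 ≤ r ^ 2 := fun j =>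
          pow_le_pow_left₀ (norm_nonneg _) ((norm_le_pi_norm (D.π w - D.π z) j).trans
            (mem_ball_iff_norm.1 hw.2).le) 2
        refine (Finset.sum_le_sum fun j _ => h2 j).trans ?_
        rw [Finset.sum_const, Finset.card_univ, Fintype.card_fin, nsmul_eq_mul]
        nlinarith [sq_nonneg r]
    rw [setLIntegral_const, D.ν_ch z _ ho.measurableSet inter_subset_left, him,
      Measure.addHaar_ball_of_pos _ _ hr, ENNReal.ofReal_rpow_of_pos (by positivity),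
      ← ENNReal.ofReal_toReal (measure_ball_lt_top (x := (0 : E n)) (r := 1)).ne, ← hv,
      ← ENNReal.ofReal_mul (by positivity), ← ENNReal.ofReal_mul (by positivity)] at h1
    refine le_trans (le_of_eq ?_) (h1.trans (lintegral_mono_set hsub))
    have hd : Module.finrank ℝ (E n) = 2 * n := by
      rw [Module.finrank_pi_fintype, Complex.finrank_real_complex, Finset.sum_const,
        Finset.card_univ, Fintype.card_fin, smul_eq_mul, mul_comm]
    rw [hd, Real.rpow_neg (by positivity), ← Nat.cast_succ, Real.rpow_natCast]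
    congr 1
    rw [Nat.succ_eq_add_one]
    field_simp
    ring
  refine ENNReal.eq_top_of_forall_nnreal_le fun M => ?_
  set c : ℝ := v / (n + 1) ^ (n + 1) with hc
  have hc0 : 0 < c := by positivity
  have hM : (0 : ℝ) < M + 1 := by positivity
  have hr : 0 < min r₀ (min 1 (c / (M + 1))) := lt_min hr₀ (lt_min one_pos (div_pos hc0 hM))
  refine le_trans ?_ (key _ hr (min_le_left _ _))
  rw [← ENNReal.ofReal_coe_nnreal, ← div_div, ← hc]
  refine ENNReal.ofReal_le_ofReal ((le_div_iff₀ (pow_pos hr 2)).2 ?_)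
  have h1 : min r₀ (min 1 (c / (M + 1))) ≤ 1 := (min_le_right _ _).trans (min_le_left _ _)
  have h2 := (le_div_iff₀ hM).1 ((min_le_right r₀ _).trans (min_le_right 1 (c / (M + 1))))
  generalize min r₀ (min 1 (c / (M + 1))) = r at hr h1 h2
  have h3 : (M : ℝ) * r * r ≤ M * r * 1 := mul_le_mul_of_nonneg_left h1 (by positivity)
  nlinarith

/-- Finite integrals near each point of a compact set give a finite integral on the set. -/
theorem lint_compact {S : Set Ω} (hS : IsCompact S) {f : Ω → ℝ≥0∞}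
    (h : ∀ z ∈ S, ∃ N ∈ 𝓝 z, ∫⁻ w in N, f w ∂D.ν ≠ ⊤) : ∫⁻ w in S, f w ∂D.ν ≠ ⊤ := by
  refine hS.induction_on (p := fun S => ∫⁻ w in S, f w ∂D.ν ≠ ⊤) (by simp)
    (fun s t hst ht => ne_top_of_le_ne_top ht (lintegral_mono_set hst))
    (fun s t hs ht => ne_top_of_le_ne_top (ENNReal.add_ne_top.2 ⟨hs, ht⟩)
      (lintegral_union_le _ _ _)) fun z hz => ?_
  obtain ⟨N, hN, h1⟩ := h z hz
  exact ⟨N, mem_nhdsWithin_of_mem_nhds hN, h1⟩

end EtDom

end Vale.Agent.P271
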