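import Vale.Agent.P271.Defs

/-! P271 G/Cut: one-variable cutoff functions.

Plan. `deriv sp τ = exp τ / (1 + exp τ)`, `deriv (deriv sp) τ = exp τ / (1 + exp τ) ^ 2`, which is at
least `1 / 12` on `[-1, 0]`. `bc τ = smoothTransition (-τ)`; its derivative is continuous, so bounded
on `[-1, 0]`, and vanishes outside (locally constant). Auxiliary names start with `cut_`. -/

open MeasureTheory Set Filter Topology
open scoped ContDiff ENNReal ComplexConjugate

noncomputable section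

namespace Vale.Agent.P271

/-- The softplus function. -/
def sp (τ : ℝ) : ℝ := Real.log (1 + Real.exp τ)

/-- A cutoff, one on `τ ≤ -1` and zero on `0 ≤ τ`. -/
def bc (τ : ℝ) : ℝ := Real.smoothTransition (-τ)

theorem cut_pos (τ : ℝ) : 0 < 1 + Real.exp τ := by positivity

theorem sp_smooth : ContDiff ℝ ∞ sp :=
  (contDiff_const.add Real.contDiff_exp).log fun τ => (cut_pos τ).ne'

theorem sp_nonneg (τ : ℝ) : 0 ≤ sp τ :=
  Real.log_nonneg (le_add_of_nonneg_right (Real.exp_pos τ).le)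

theorem sp_le (τ : ℝ) : sp τ ≤ max τ 0 + 1 := by
  rw [sp, Real.log_le_iff_le_exp (cut_pos τ), Real.exp_add]
  have h1 : Real.exp τ ≤ Real.exp (max τ 0) := Real.exp_le_exp.2 (le_max_left _ _)
  have h2 : 1 ≤ Real.exp (max τ 0) := Real.one_le_exp (le_max_right _ _)
  have h3 := Real.add_one_le_exp 1
  nlinarith

theorem cut_d1 : deriv sp = fun τ => Real.exp τ / (1 + Real.exp τ) := funext fun τ =>
  (((Real.hasDerivAt_exp τ).const_add 1).log (cut_pos τ).ne').deriv

theorem cut_d2 (τ : ℝ) : deriv (deriv sp) τ = Real.exp τ / (1 + Real.exp τ) ^ 2 := by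
  rw [cut_d1]
  refine ((Real.hasDerivAt_exp τ).div ((Real.hasDerivAt_exp τ).const_add 1)
    (cut_pos τ).ne').deriv.trans ?_
  congr 1
  ring

theorem sp_d1 (τ : ℝ) : 0 ≤ deriv sp τ := by
  rw [cut_d1]
  positivity

theorem sp_d2 (τ : ℝ) : 0 ≤ deriv (deriv sp) τ := by
  rw [cut_d2]
  positivity

theorem bc_smooth : ContDiff ℝ ∞ bc := Real.smoothTransition.contDiff.comp contDiff_neg

theorem bc_mem (τ : ℝ) : 0 ≤ bc τ ∧ bc τ ≤ 1 :=
  ⟨Real.smoothTransition.nonneg _, Real.smoothTransition.le_one _⟩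

theorem bc_one {τ : ℝ} (h : τ ≤ -1) : bc τ = 1 :=
  Real.smoothTransition.one_of_one_le (by linarith)

theorem bc_zero {τ : ℝ} (h : 0 ≤ τ) : bc τ = 0 :=
  Real.smoothTransition.zero_of_nonpos (by linarith)

theorem bc_deriv_zero {τ : ℝ} (h : τ < -1 ∨ 0 < τ) : deriv bc τ = 0 := by
  rcases h with h | h
  · have : bc =ᶠ[𝓝 τ] fun _ => 1 := (eventually_lt_nhds h).mono fun σ hσ => bc_one hσ.le
    rw [this.deriv_eq, deriv_const]
  · have : bc =ᶠ[𝓝 τ] fun _ => 0 := (eventually_gt_nhds h).mono fun σ hσ => bc_zero hσ.le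
    rw [this.deriv_eq, deriv_const]

theorem exists_bc_bound : ∃ C : ℝ, 0 < C ∧ ∀ τ, deriv bc τ ^ 2 ≤ C * deriv (deriv sp) τ := by
  have h1 : Continuous fun τ => deriv bc τ ^ 2 * ((1 + Real.exp τ) ^ 2 / Real.exp τ) :=
    ((bc_smooth.continuous_deriv (by simp)).pow 2).mul
      (Continuous.div (by fun_prop) Real.continuous_exp fun τ => (Real.exp_pos τ).ne')
  obtain ⟨C, hC⟩ := (isCompact_Icc (a := (-1 : ℝ)) (b := 0)).bddAbove_image h1.continuousOn
  refine ⟨max C 1, one_pos.trans_le (le_max_right _ _), fun τ => ?_⟩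
  by_cases hτ : τ ∈ Icc (-1 : ℝ) 0
  · have h2 := (hC ⟨τ, hτ, rfl⟩).trans (le_max_left C 1)
    have h3 := cut_pos τ
    have h4 := Real.exp_pos τ
    rw [cut_d2, ← mul_div_assoc, le_div_iff₀ (by positivity)]
    beta_reduce at h2
    rwa [← mul_div_assoc, div_le_iff₀ h4] at h2
  · rw [bc_deriv_zero (by simpa only [mem_Icc, not_and_or, not_le] using hτ),
      zero_pow two_ne_zero]
    exact mul_nonneg (zero_le_one.trans (le_max_right _ _)) (sp_d2 τ)

theorem deriv_shift (f : ℝ → ℝ) (T τ : ℝ) :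
    deriv (fun σ => f (σ + T)) τ = deriv f (τ + T) ∧
      deriv (deriv fun σ => f (σ + T)) τ = deriv (deriv f) (τ + T) := by
  refine ⟨deriv_comp_add_const _ _ _, ?_⟩
  rw [show (deriv fun σ => f (σ + T)) = fun σ => deriv f (σ + T) from
    funext fun σ => deriv_comp_add_const _ _ _, deriv_comp_add_const]

end Vale.Agent.P271
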