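import Vale.Agent.P271.G.GZ0

/-! P271 G/DK: semicontinuity of the singularity exponent.

Plan. Let `γ > c₀` and suppose the integral of `wE s₀ a₀ ^ (-γ)` over some neighbourhood is finite.
`stein_nhds` gives `W` inside it and inside `N`, with compact closure; `|s₀ i| ≤ R - 1` on `W`, so
`|s l i| ≤ R` for large `l`. Pick `c₀ < γ₁ < γ₂ < γ`, `θ = γ₁ / γ₂`. For large `l`: `c l < γ₁`,
`θ a₀ i ≤ a l i`, and with `E = wE (s l) (a l) ≤ B` on `W` (uniform `B` not needed),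
`|s l i| ^ (2 / a₀ i) ≤ E ^ (a l i / a₀ i) ≤ C E ^ θ` (`sq_le_wE`), so
`wE (s l) a₀ ≤ C E ^ θ` near `z l` and `NI (wE (s l) a₀) (z l) γ₂` (`NI (E ^ θ) γ₂` is `NI E γ₁`;
`NI.of_le`). `gz0` for `a₀`, `c = γ₂`, `ε = (γ - γ₂) / 2`, `g = 1` gives
`1 ≤ C exp ((γ₂ + ε) T) ν (W ∩ {wE (s l) a₀ ≤ exp (-T)})`. For fixed `T` and large `l` this set lies in
`W ∩ {wE s₀ a₀ ≤ exp (-(T - 1))}` (`dk_unif`: uniform continuity of `x ↦ x ^ (2 / a)` on `[0, R]`),
of measure at most `C' exp (-γ (T - 1))` (`meas_le_of_lint`). Take `T` large.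
Auxiliary names start with `dk_`. -/

open MeasureTheory Set Filter Topology
open scoped ContDiff ENNReal ComplexConjugate

noncomputable section

namespace Vale.Agent.P271

theorem dk_sum {Ω ι : Type} {f : ι → ℕ → Ω → ℝ} {g : ι → Ω → ℝ} {W : Set Ω} (t : Finset ι)
    (h : ∀ i, TendstoUniformlyOn (f i) (g i) atTop W) :
    TendstoUniformlyOn (fun l w => ∑ i ∈ t, f i l w) (fun w => ∑ i ∈ t, g i w) atTop W := by
  classical
  induction t using Finset.induction_on with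
  | empty => exact fun u hu => Eventually.of_forall fun _ _ _ => refl_mem_uniformity hu
  | insert i t hi ih =>
    simp only [Finset.sum_insert hi]
    exact (h i).add ih

theorem dk_unif {Ω ι : Type} [Fintype ι] {s : ℕ → ι → Ω → ℂ} {s₀ : ι → Ω → ℂ} {W : Set Ω} {R : ℝ}
    (hR : ∀ i, ∀ w ∈ W, ‖s₀ i w‖ ≤ R)
    (hs : ∀ i, TendstoUniformlyOn (fun l => s l i) (s₀ i) atTop W) (a : ι → ℝ) :
    TendstoUniformlyOn (fun l => wE (s l) a) (wE s₀ a) atTop W := by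
  refine dk_sum (f := fun i l w => if 0 < a i then ‖s l i w‖ ^ (2 / a i) else 0)
    (g := fun i w => if 0 < a i then ‖s₀ i w‖ ^ (2 / a i) else 0) _ fun i u hu => ?_
  have hc : Continuous fun x : ℂ => if 0 < a i then ‖x‖ ^ (2 / a i) else (0 : ℝ) := by
    split_ifs with h
    · exact continuous_norm.rpow_const fun _ => Or.inr (by positivity)
    · exact continuous_const
  filter_upwards [hs i _ ((isCompact_closedBall (0 : ℂ) R).uniformContinuousAt_of_continuousAt _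
    (fun _ _ => hc.continuousAt) hu)] with l hl w hw
  exact hl w hw (mem_closedBall_zero_iff.2 (hR i w hw))

namespace EtDom

variable {n : ℕ} {Ω : Type} [TopologicalSpace Ω] [T2Space Ω] [SecondCountableTopology Ω]
  [MeasurableSpace Ω] [BorelSpace Ω] {D : EtDom n Ω}

theorem dk_ni {ι : Type} [Fintype ι] {s : ι → Ω → ℂ} {a a₀ : ι → ℝ} {z : Ω} {θ γ : ℝ}
    (hs : ∀ i, ContinuousAt (s i) z) (hθ : 0 < θ) (hγ : 0 ≤ γ)
    (ha : ∀ i, 0 < a₀ i → θ * a₀ i ≤ a i) (h : D.NI (wE s a) z (θ * γ)) :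
    D.NI (wE s a₀) z γ := by
  have h1 : D.NI (fun w => wE s a w ^ θ) z γ := fun N hN => by
    rw [← h N hN]
    refine lintegral_congr fun w => ?_
    rw [← ENNReal.ofReal_rpow_of_nonneg (wE_nonneg s a w) hθ.le, ← ENNReal.rpow_mul, mul_neg]
  have hB : 0 < wE s a z + 1 := by linarith [wE_nonneg s a z]
  have h2 : 0 ≤ ∑ i, (wE s a z + 1) ^ (a i / a₀ i - θ) :=
    Finset.sum_nonneg fun i _ => Real.rpow_nonneg hB.le _
  refine h1.of_le hγ (C := ∑ i, (wE s a z + 1) ^ (a i / a₀ i - θ) + 1) (by linarith) ?_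
  filter_upwards [(wE_continuousAt s a z hs).eventually_lt continuousAt_const (lt_add_one _)]
    with w hw
  have h0 := wE_nonneg s a w
  have h3 := Real.rpow_nonneg h0 θ
  refine le_trans ?_ (mul_le_mul_of_nonneg_right (le_add_of_nonneg_right zero_le_one) h3)
  rw [Finset.sum_mul]
  refine Finset.sum_le_sum fun i _ => ?_
  split_ifs with hi
  · have h4 : 0 ≤ a i / a₀ i - θ := sub_nonneg.2 ((le_div_iff₀ hi).2 (ha i hi))
    have h5 := Real.rpow_le_rpow (sq_nonneg _)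
      (sq_le_wE s a w ((mul_pos hθ hi).trans_le (ha i hi))) (inv_nonneg.2 hi.le)
    rw [← Real.rpow_two, ← Real.rpow_mul (norm_nonneg _), ← Real.rpow_mul h0, ← div_eq_mul_inv,
      ← div_eq_mul_inv, ← sub_add_cancel (a i / a₀ i) θ, Real.rpow_add_of_nonneg h0 h4 hθ.le] at h5
    exact h5.trans (mul_le_mul_of_nonneg_right (Real.rpow_le_rpow h0 hw.le h4) h3)
  · exact mul_nonneg (Real.rpow_nonneg hB.le _) h3

theorem dk {ι : Type} [Fintype ι] {s : ℕ → ι → Ω → ℂ} {s₀ : ι → Ω → ℂ} {a : ℕ → ι → ℝ}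
    {a₀ : ι → ℝ} {c : ℕ → ℝ} {c₀ : ℝ} {z : ℕ → Ω} {z₀ : Ω} {N : Set Ω} (hN : N ∈ 𝓝 z₀)
    (hol : ∀ l i, ∀ w ∈ N, D.HolAt (s l i) w) (hol₀ : ∀ i, ∀ w ∈ N, D.HolAt (s₀ i) w)
    (hs : ∀ i, TendstoUniformlyOn (fun l => s l i) (s₀ i) atTop N)
    (ha : ∀ i, Tendsto (fun l => a l i) atTop (𝓝 (a₀ i))) (hc : Tendsto c atTop (𝓝 c₀))
    (hc₀ : 0 ≤ c₀) (hz : Tendsto z atTop (𝓝 z₀)) (adm : ∀ l, D.Adm (wE (s l) (a l)) (z l) (c l)) :
    D.Adm (wE s₀ a₀) z₀ c₀ := by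
  intro γ hγ N₀ hN₀
  by_contra hfin
  obtain ⟨W, hW, hzW, hWN, hK⟩ := stein_nhds (D := D) (inter_mem hN hN₀)
  have hsub : W ⊆ N ∩ N₀ := subset_closure.trans hWN
  have hcont : ∀ i, ∀ w ∈ N, ContinuousAt (s₀ i) w := fun i w hw => (hol₀ i w hw).smAt.continuousAt
  choose R' hR' using fun i => hK.exists_bound_of_continuousOn (f := s₀ i)
    fun w hw => (hcont i w (hWN hw).1).continuousWithinAt
  have hR : ∀ i, ∀ w ∈ W, ‖s₀ i w‖ ≤ ∑ j, |R' j| := fun i w hw =>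
    ((hR' i w (subset_closure hw)).trans (le_abs_self _)).trans
      (Finset.single_le_sum (f := fun j => |R' j|) (fun _ _ => abs_nonneg _) (Finset.mem_univ i))
  generalize ∑ j, |R' j| = R at hR
  have hsW : ∀ i, TendstoUniformlyOn (fun l => s l i) (s₀ i) atTop W := fun i =>
    (hs i).mono fun w hw => (hsub hw).1
  obtain ⟨ε, hε, rfl⟩ : ∃ ε, 0 < ε ∧ γ = c₀ + 4 * ε := ⟨(γ - c₀) / 4, by linarith, by ring⟩
  have hγ₂ : 0 < c₀ + 2 * ε := by linarith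
  obtain ⟨C, hC, N', hN', hgz⟩ := gz0 a₀ (R + 1) hγ₂ hε hW hzW
  have hI : ∫⁻ w in W, ENNReal.ofReal (wE s₀ a₀ w) ^ (-(c₀ + 4 * ε)) ∂D.ν ≠ ⊤ :=
    ne_top_of_le_ne_top hfin (lintegral_mono_set fun w hw => (hsub hw).2)
  obtain ⟨I, hI0, hI'⟩ : ∃ I : ℝ, 0 ≤ I ∧
      ∫⁻ w in W, ENNReal.ofReal (wE s₀ a₀ w) ^ (-(c₀ + 4 * ε)) ∂D.ν = ENNReal.ofReal I :=
    ⟨_, ENNReal.toReal_nonneg, (ENNReal.ofReal_toReal hI).symm⟩
  obtain ⟨T, hT0, hT⟩ : ∃ T : ℝ, 0 ≤ T ∧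
      C * Real.exp (c₀ + 4 * ε) * I * Real.exp (-(ε * T)) < 1 := by
    have h1 : Tendsto (fun T : ℝ => C * Real.exp (c₀ + 4 * ε) * I * Real.exp (-(ε * T))) atTop
        (𝓝 (C * Real.exp (c₀ + 4 * ε) * I * 0)) :=
      (Real.tendsto_exp_neg_atTop_nhds_zero.comp (tendsto_id.const_mul_atTop hε)).const_mul _
    rw [mul_zero] at h1
    exact ((eventually_ge_atTop 0).and (h1.eventually (gt_mem_nhds one_pos))).exists
  have hθ : 0 < (c₀ + ε) / (c₀ + 2 * ε) := div_pos (by linarith) hγ₂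
  have e1 : ∀ᶠ l in atTop, ∀ i, ∀ w ∈ W, dist (s₀ i w) (s l i w) < 1 :=
    eventually_all.2 fun i => Metric.tendstoUniformlyOn_iff.1 (hsW i) 1 one_pos
  have e2 : ∀ᶠ l in atTop, c l < c₀ + ε := hc.eventually (gt_mem_nhds (by linarith))
  have e3 : ∀ᶠ l in atTop, ∀ i, 0 < a₀ i → (c₀ + ε) / (c₀ + 2 * ε) * a₀ i ≤ a l i := by
    refine eventually_all.2 fun i => ?_
    by_cases hi : 0 < a₀ i
    · have h1 : (c₀ + ε) / (c₀ + 2 * ε) * a₀ i < a₀ i :=
        mul_lt_of_lt_one_left hi ((div_lt_one hγ₂).2 (by linarith))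
      exact ((ha i).eventually (lt_mem_nhds h1)).mono fun l hl _ => hl.le
    · exact Eventually.of_forall fun l h => absurd h hi
  have e4 : ∀ᶠ l in atTop, z l ∈ N ∩ N' := hz.eventually (inter_mem hN hN')
  have e5 := Metric.tendstoUniformlyOn_iff.1 (dk_unif hR hsW a₀)
    (Real.exp (-(T - 1)) - Real.exp (-T)) (sub_pos.2 (Real.exp_lt_exp.2 (by linarith)))
  obtain ⟨l, ⟨⟨⟨a1, a2⟩, a3⟩, a4⟩, a5⟩ := ((((e1.and e2).and e3).and e4).and e5).exists
  have hni : D.NI (wE (s l) a₀) (z l) (c₀ + 2 * ε) := by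
    refine dk_ni (fun i => (hol l i _ a4.1).smAt.continuousAt) hθ hγ₂.le a3 ?_
    rw [div_mul_cancel₀ _ hγ₂.ne']
    exact adm l _ a2
  have hν := D.finiteOnCompacts
  have key := hgz (s l) (fun i w hw => ⟨hol l i w (hsub hw).1, ?_⟩) (z l) a4.2 hni T hT0
    (fun _ => 1) (fun w _ => holAt_const 1) ?_
  · simp only [norm_one, one_pow, ENNReal.ofReal_one, setLIntegral_one] at key
    have h1 : W ∩ {w | wE (s l) a₀ w ≤ Real.exp (-T)} ⊆
        W ∩ {w | wE s₀ a₀ w ≤ Real.exp (-(T - 1))} := fun w hw => ⟨hw.1, by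
      have h2 := (abs_lt.1 (a5 w hw.1)).2
      have h3 : wE (s l) a₀ w ≤ Real.exp (-T) := hw.2
      change wE s₀ a₀ w ≤ _
      linarith⟩
    have h2 := (measure_mono h1).trans (meas_le_of_lint (D := D) (γ := c₀ + 4 * ε) hW.1
      (fun w hw => (wE_continuousAt s₀ a₀ w fun i => hcont i w (hsub hw).1).continuousWithinAt)
      (by linarith) (T - 1))
    have h3 := key.trans (mul_le_mul_right h2 _)
    rw [hI', ← ENNReal.ofReal_mul (Real.exp_pos _).le, ← ENNReal.ofReal_mul (by positivity),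
      ENNReal.one_le_ofReal] at h3
    refine (h3.trans_lt (lt_of_eq_of_lt ?_ hT)).false
    have h4 : Real.exp ((c₀ + 2 * ε + ε) * T) * Real.exp (-((c₀ + 4 * ε) * (T - 1))) =
        Real.exp (c₀ + 4 * ε) * Real.exp (-(ε * T)) := by
      rw [← Real.exp_add, ← Real.exp_add]
      congr 1
      ring
    linear_combination C * I * h4
  · have h1 := a1 i w hw
    rw [dist_comm, dist_eq_norm] at h1
    linarith [norm_le_norm_add_norm_sub' (s l i w) (s₀ i w), hR i w hw]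
  · simp only [norm_one, one_pow, ENNReal.ofReal_one, setLIntegral_one]
    exact ((measure_mono subset_closure).trans_lt hK.measure_lt_top).ne

end EtDom

end Vale.Agent.P271
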