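import Vale.Agent.P271.G.GZw
import Vale.Agent.P271.H.Horm

/-! P271 G/GZ: extension from sublevel sets (effective openness).

Plan. `C₁` from `wP_le`, `B` from `exists_bc_bound`, `P = C₁ (∑ max R 1 ^ (2 / a i) + 1)` bounds
`wP s a 0` on `W`. `S₀ = T + 2 + log (2 C₁)`. Let `I` be the integral on the right (finite). Apply
`hormander` with `gzg`, `gzφ`, `gzM (B / ε)`, `A = ofReal (B / ε * (2 C₁ exp (T + 1)) ^ c) * I` (`gz_M`,
`lintegral_indicator_le`, `Measure.restrict_restrict'`). `wE z = 0` by `NI.nonpos`, so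
`wP S₀ z ≤ C₁ exp (-S₀) ≤ exp (-T - 1)` and `gzg z = g z`; `force` with
`f = |gzg - F| ^ 2 * exp (-φ - ε sp ..)` (`gz_exp`) gives `F z = g z`. Finally
`|F| ^ 2 ≤ 2 |gzg| ^ 2 + 2 |gzg - F| ^ 2`, `gzg_le`, `gz_low` (measurability from continuity on the
open set `W`). Auxiliary names start with `gz1_`. -/

open MeasureTheory Set Filter Topology
open scoped ContDiff ENNReal ComplexConjugate

noncomputable section

namespace Vale.Agent.P271

namespace EtDom

variable {n : ℕ} {Ω : Type} [TopologicalSpace Ω] [T2Space Ω] [SecondCountableTopology Ω]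
  [MeasurableSpace Ω] [BorelSpace Ω] {D : EtDom n Ω}

theorem gz {ι : Type} [Fintype ι] (a : ι → ℝ) (R : ℝ) {c ε : ℝ} (hc : 0 < c) (hε : 0 < ε) :
    ∃ C : ℝ, 0 < C ∧ ∀ W : Set Ω, D.Stein W → ∀ s : ι → Ω → ℂ,
      (∀ i, ∀ w ∈ W, D.HolAt (s i) w ∧ ‖s i w‖ ≤ R) → ∀ z ∈ W, D.NI (wE s a) z c →
      ∀ T : ℝ, 0 ≤ T → ∀ φ : Ω → ℝ, (∀ w ∈ W, D.Psh φ w) → ∀ g : Ω → ℂ,
      (∀ w ∈ W, D.HolAt g w) →
      ∫⁻ w in W, ENNReal.ofReal (‖g w‖ ^ 2 * Real.exp (-φ w)) ∂D.ν ≠ ⊤ →
      ∃ G : Ω → ℂ, (∀ w ∈ W, D.HolAt G w) ∧ G z = g z ∧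
        ∫⁻ w in W, ENNReal.ofReal (‖G w‖ ^ 2 * Real.exp (-φ w)) ∂D.ν ≤
          ENNReal.ofReal (C * Real.exp ((c + ε) * T)) *
            ∫⁻ w in W ∩ {w | wE s a w ≤ Real.exp (-T)},
              ENNReal.ofReal (‖g w‖ ^ 2 * Real.exp (-φ w)) ∂D.ν := by
  obtain ⟨C₁, hC₁, hle⟩ := wP_le a
  obtain ⟨B, hB, hBle⟩ := exists_bc_bound
  set P := C₁ * (∑ i, max R 1 ^ (2 / a i) + 1) with hPdef
  have hsum : 0 ≤ ∑ i, max R 1 ^ (2 / a i) :=
    Finset.sum_nonneg fun i _ => Real.rpow_nonneg (le_max_of_le_right zero_le_one) _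
  have hP : 1 ≤ P := by nlinarith
  set K₁ := B / ε * (2 * C₁ * Real.exp 1) ^ c with hK₁
  set K₂ := P ^ (c + ε) * Real.exp ε with hK₂
  have K1 : 0 < K₁ := by positivity
  have K2 : 0 < K₂ := by positivity
  refine ⟨2 + 6 * (K₂ * K₁), by positivity, fun W hW s hs z hz hN T hT φ hφ g hg hI => ?_⟩
  have hWo := hW.1
  have hWm := hWo.measurableSet
  set S₀ := T + 2 + Real.log (2 * C₁) with hS₀
  have hlog : 0 ≤ Real.log (2 * C₁) := Real.log_nonneg (by linarith)
  set I := ∫⁻ w in W ∩ {w | wE s a w ≤ Real.exp (-T)},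
    ENNReal.ofReal (‖g w‖ ^ 2 * Real.exp (-φ w)) ∂D.ν with hIdef
  have hI' : I ≠ ⊤ := ne_top_of_le_ne_top hI (lintegral_mono_set inter_subset_left)
  have ind : ∀ (f : Ω → ℝ) (k : ℝ), 0 ≤ k → (∀ w ∈ W, f w ≤ {w | wE s a w ≤ Real.exp (-T)}.indicator
      (fun w => k * (‖g w‖ ^ 2 * Real.exp (-φ w))) w) →
      ∫⁻ w in W, ENNReal.ofReal (f w) ∂D.ν ≤ ENNReal.ofReal k * I := fun f k hk hf => by
    refine (setLIntegral_mono' hWm (g := {w | wE s a w ≤ Real.exp (-T)}.indicator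
      fun w => ENNReal.ofReal k * ENNReal.ofReal (‖g w‖ ^ 2 * Real.exp (-φ w)))
      fun w hw => ?_).trans ?_
    · refine (ENNReal.ofReal_le_ofReal (hf w hw)).trans ?_
      by_cases h : w ∈ {w | wE s a w ≤ Real.exp (-T)}
      · rw [indicator_of_mem h, indicator_of_mem h, ENNReal.ofReal_mul hk]
      · rw [indicator_of_notMem h, indicator_of_notMem h, ENNReal.ofReal_zero]
    · refine (lintegral_indicator_le _ _).trans ?_
      rw [Measure.restrict_restrict' hWm, inter_comm, lintegral_const_mul' _ _ ENNReal.ofReal_ne_top]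
  have hcs : ∀ i, ContinuousOn (s i) W := fun i w hw =>
    (hs i w hw).1.smAt.continuousAt.continuousWithinAt
  have hgz : ∀ w, ‖gzg s a g T S₀ w‖ ^ 2 * Real.exp (-φ w) ≤
      {w | wE s a w ≤ Real.exp (-T)}.indicator (fun w => 1 * (‖g w‖ ^ 2 * Real.exp (-φ w))) w :=
    fun w => by
    refine (mul_le_mul_of_nonneg_right (gzg_le s a g T S₀ w) (Real.exp_pos _).le).trans ?_
    by_cases h : w ∈ {w | wE s a w ≤ Real.exp (-T)}
    · rw [indicator_of_mem h, indicator_of_mem h, one_mul]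
    · rw [indicator_of_notMem h, indicator_of_notMem h, zero_mul]
  set k₁ := B / ε * (2 * C₁ * Real.exp (T + 1)) ^ c with hk₁
  have hA : ENNReal.ofReal k₁ * I ≠ ⊤ := ENNReal.mul_ne_top ENNReal.ofReal_ne_top hI'
  obtain ⟨F, hF, hFb⟩ := hormander hW (g := gzg s a g T S₀) (φ := gzφ s a φ c ε T S₀)
    (M := fun _ => gzM s a g (B / ε) T S₀)
    (fun w hw => gzg_sm a (fun i => (hs i w hw).1) (hg w hw) T S₀)
    (fun S w hw => gz_psh a (fun i => (hs i w hw).1) (hφ w hw) hc.le hε.le T S₀ S)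
    (fun w _ => gz_anti s a φ hc.le ε T S₀ w)
    (fun S w _ => by unfold gzM; split_ifs <;> positivity)
    (fun S w hw v => gz_levi a (fun i => (hs i w hw).1) (hφ w hw) (hg w hw) hc.le hε hBle hB.le
      T S₀ S v)
    (fun S => ne_top_of_le_ne_top (ENNReal.mul_ne_top ENNReal.ofReal_ne_top hI')
      (ind _ (Real.exp (c * S)) (Real.exp_pos _).le fun w _ => by
        refine (mul_le_mul_of_nonneg_left (gz_exp_le s a φ hc.le hε.le T S₀ S w)
          (by positivity)).trans ?_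
        have h1 := mul_le_mul_of_nonneg_left (hgz w) (Real.exp_pos (c * S)).le
        rw [← mul_assoc, mul_comm (‖gzg s a g T S₀ w‖ ^ 2), mul_assoc]
        refine h1.trans (le_of_eq ?_)
        by_cases h : w ∈ {w | wE s a w ≤ Real.exp (-T)}
        · rw [indicator_of_mem h, indicator_of_mem h, one_mul]
        · rw [indicator_of_notMem h, indicator_of_notMem h, mul_zero]))
    (fun S => ind _ k₁ (by positivity) fun w _ => gz_M s a φ g hc.le hε.le (by positivity) hC₁ w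
      (hle Ω s S₀ w) (by linarith) S) hA
  have cg : ∀ w ∈ W, ContinuousAt (gzg s a g T S₀) w := fun w hw =>
    (gzg_sm a (fun i => (hs i w hw).1) (hg w hw) T S₀).continuousAt
  have cF : ∀ w ∈ W, ContinuousAt F w := fun w hw => (hF w hw).smAt.continuousAt
  have cφ : ∀ w ∈ W, ContinuousAt φ w := fun w hw => (hφ w hw).1.continuousAt
  refine ⟨F, hF, ?_, ?_⟩
  · have cz : ∀ i, ContinuousAt (s i) z := fun i => (hs i z hz).1.smAt.continuousAt
    have h0 : wE s a z = 0 := le_antisymm (hN.nonpos (wE_continuousAt s a z cz)) (wE_nonneg s a z)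
    have h1 : gzg s a g T S₀ z = g z := by
      have h2 := hle Ω s S₀ z
      rw [h0, zero_add] at h2
      have h3 := Real.log_le_log (wP_pos s a z S₀) h2
      rw [Real.log_mul (by positivity) (Real.exp_pos _).ne', Real.log_exp] at h3
      have h4 : Real.log C₁ ≤ Real.log (2 * C₁) := Real.log_le_log (by linarith) (by linarith)
      rw [gzg, bc_one (by linarith)]
      simp
    have h2 := force hWo hz hcs hc hN (C := 3 * (ENNReal.ofReal k₁ * I))
      (f := fun w => ‖gzg s a g T S₀ w - F w‖ ^ 2 *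
        Real.exp (-φ w - ε * sp (Real.log (wP s a S₀ w) + T)))
      ((((cg z hz).sub (cF z hz)).norm.pow 2).mul (Real.continuous_exp.continuousAt.comp
        ((cφ z hz).neg.sub ((sp_smooth.continuous.continuousAt.comp
          (((wP_continuousAt s a z cz S₀).log (wP_pos s a z S₀).ne').add
            continuousAt_const)).const_mul ε))))
      (ENNReal.mul_ne_top (by norm_num) hA) fun S => by
        simpa only [gz_exp, mul_assoc] using hFb S
    have h3 : ‖gzg s a g T S₀ z - F z‖ ^ 2 ≤ 0 :=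
      nonpos_of_mul_nonpos_left h2 (Real.exp_pos _)
    have h4 := pow_eq_zero_iff two_ne_zero |>.1 (le_antisymm h3 (by positivity))
    rw [norm_eq_zero, sub_eq_zero, h1] at h4
    exact h4.symm
  · set k₂ := P ^ (c + ε) * Real.exp (ε * (T + 1)) with hk₂
    have hpt : ∀ w ∈ W, ENNReal.ofReal (‖F w‖ ^ 2 * Real.exp (-φ w)) ≤
        ENNReal.ofReal (2 * (‖gzg s a g T S₀ w‖ ^ 2 * Real.exp (-φ w))) +
          ENNReal.ofReal (2 * k₂) * ENNReal.ofReal
            (‖gzg s a g T S₀ w - F w‖ ^ 2 * Real.exp (-gzφ s a φ c ε T S₀ 0 w)) := fun w hw => by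
      rw [← ENNReal.ofReal_mul (by positivity), ← ENNReal.ofReal_add (by positivity) (by positivity)]
      refine ENNReal.ofReal_le_ofReal ?_
      have h1 : wP s a 0 w ≤ P := by
        refine (hle Ω s 0 w).trans (mul_le_mul_of_nonneg_left ?_ (by linarith))
        rw [neg_zero, Real.exp_zero]
        exact add_le_add (wE_le s a w fun i => (hs i w hw).2) le_rfl
      have h2 := gz_low s a φ hc.le hε.le hT (S₀ := S₀) (by linarith) hP w h1
      have h3 : ‖F w‖ ≤ ‖gzg s a g T S₀ w‖ + ‖gzg s a g T S₀ w - F w‖ := by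
        simpa using norm_sub_le (gzg s a g T S₀ w) (gzg s a g T S₀ w - F w)
      have h4 : ‖F w‖ ^ 2 ≤ 2 * ‖gzg s a g T S₀ w‖ ^ 2 + 2 * ‖gzg s a g T S₀ w - F w‖ ^ 2 := by
        nlinarith [norm_nonneg (F w), sq_nonneg (‖gzg s a g T S₀ w‖ - ‖gzg s a g T S₀ w - F w‖)]
      have h5 := mul_le_mul_of_nonneg_right h4 (Real.exp_pos (-φ w)).le
      have h6 := mul_le_mul_of_nonneg_left h2 (sq_nonneg ‖gzg s a g T S₀ w - F w‖)
      nlinarith
    refine (setLIntegral_mono' hWm hpt).trans ?_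
    have hm : AEMeasurable (fun w => ENNReal.ofReal (2 * (‖gzg s a g T S₀ w‖ ^ 2 *
        Real.exp (-φ w)))) (D.ν.restrict W) :=
      (ContinuousOn.aemeasurable (fun w hw => ((((cg w hw).norm.pow 2).mul
        (Real.continuous_exp.continuousAt.comp (cφ w hw).neg)).const_mul 2).continuousWithinAt)
        hWm).ennreal_ofReal
    rw [lintegral_add_left' hm, lintegral_const_mul' _ _ ENNReal.ofReal_ne_top]
    have b1 := ind (fun w => 2 * (‖gzg s a g T S₀ w‖ ^ 2 * Real.exp (-φ w))) 2 zero_le_two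
      fun w _ => by
        refine (mul_le_mul_of_nonneg_left (hgz w) zero_le_two).trans (le_of_eq ?_)
        by_cases h : w ∈ {w | wE s a w ≤ Real.exp (-T)}
        · rw [indicator_of_mem h, indicator_of_mem h, one_mul]
        · rw [indicator_of_notMem h, indicator_of_notMem h, mul_zero]
    refine (add_le_add b1 (mul_le_mul_right (hFb 0) _)).trans ?_
    rw [← mul_assoc (3 : ℝ≥0∞), ← mul_assoc, ← add_mul, ← ENNReal.ofReal_ofNat 3,
      ← ENNReal.ofReal_mul (by positivity), ← ENNReal.ofReal_mul (by positivity),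
      ← ENNReal.ofReal_add (by positivity) (by positivity)]
    refine mul_le_mul_left (ENNReal.ofReal_le_ofReal ?_) _
    have e1 : k₂ * k₁ = K₂ * K₁ * Real.exp ((c + ε) * T) := by
      rw [hk₁, hk₂, hK₁, hK₂, Real.mul_rpow (by positivity) (Real.exp_pos _).le,
        Real.mul_rpow (x := 2 * C₁) (by positivity) (Real.exp_pos _).le, ← Real.exp_mul,
        ← Real.exp_mul, mul_add ε, add_mul T, add_mul c, Real.exp_add, Real.exp_add, Real.exp_add,
        mul_one, mul_comm T c]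
      ring
    have e2 : 1 ≤ Real.exp ((c + ε) * T) := Real.one_le_exp (by positivity)
    nlinarith

end EtDom

end Vale.Agent.P271
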