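import Vale.Agent.P271.G.GZ
import Vale.Agent.P271.H.Mean
import Vale.Agent.P271.H.Nbhd

/-! P271 G/GZ0: point values are bounded by norms on sublevel sets.

Plan. Take `C₀, N'` from `mean_value` for `W`, `C₁` from `gz`; apply `gz` with
`φ = 0` (`psh_const`).
Replace `N'` by `N' ∩ W`. Auxiliary names start with `gz0_`. -/

open MeasureTheory Set Filter Topology
open scoped ContDiff ENNReal ComplexConjugate

noncomputable section

namespace Vale.Agent.P271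

namespace EtDom

variable {n : ℕ} {Ω : Type} [TopologicalSpace Ω] [T2Space Ω] [SecondCountableTopology Ω]
  [MeasurableSpace Ω] [BorelSpace Ω] {D : EtDom n Ω}

theorem gz0 {ι : Type} [Fintype ι] (a : ι → ℝ) (R : ℝ) {c ε : ℝ} (hc : 0 < c) (hε : 0 < ε)
    {z₀ : Ω} {W : Set Ω} (hW : D.Stein W) (hz : z₀ ∈ W) :
    ∃ C : ℝ, 0 < C ∧ ∃ N' ∈ 𝓝 z₀, ∀ s : ι → Ω → ℂ,
      (∀ i, ∀ w ∈ W, D.HolAt (s i) w ∧ ‖s i w‖ ≤ R) → ∀ z ∈ N', D.NI (wE s a) z c →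
      ∀ T : ℝ, 0 ≤ T → ∀ g : Ω → ℂ, (∀ w ∈ W, D.HolAt g w) →
      ∫⁻ w in W, ENNReal.ofReal (‖g w‖ ^ 2) ∂D.ν ≠ ⊤ →
      ENNReal.ofReal (‖g z‖ ^ 2) ≤ ENNReal.ofReal (C * Real.exp ((c + ε) * T)) *
        ∫⁻ w in W ∩ {w | wE s a w ≤ Real.exp (-T)}, ENNReal.ofReal (‖g w‖ ^ 2) ∂D.ν := by
  obtain ⟨C₀, N', hN', h0⟩ := mean_value (D := D) (hW.1.mem_nhds hz)
  obtain ⟨C₁, hC₁, h1⟩ := gz (D := D) a R hc hε
  refine ⟨(C₀ + 1) * C₁, by positivity, N' ∩ W, inter_mem hN' (hW.1.mem_nhds hz),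
    fun s hs z hz' hN T hT g hg hfin => ?_⟩
  obtain ⟨G, hG, hGz, h2⟩ := h1 W hW s hs z hz'.2 hN T hT (fun _ => 0) (fun _ _ => psh_const 0)
    g hg (by simpa using hfin)
  simp only [neg_zero, Real.exp_zero, mul_one] at h2
  rw [← hGz, mul_assoc, ENNReal.ofReal_mul (by positivity), mul_assoc]
  refine (h0 G hG z hz'.1).trans (mul_le_mul' ?_ h2)
  rw [← ENNReal.ofReal_coe_nnreal]
  exact ENNReal.ofReal_le_ofReal (le_add_of_nonneg_right zero_le_one)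

end EtDom

end Vale.Agent.P271
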