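import Vale.Agent.P271.G.Reg
import Vale.Agent.P271.G.Cut

/-! P271 G/GZw: the weights used in `gz` (pointwise facts).

Plan. `u = log (wP s a S₀)`. `gz_levi`: `dbar_cut` with `b = fun σ => bc (σ + T)` (`HolAt.db_eq` kills the
last term), `deriv_shift`, `levi_add`, `levi_smul`, `levi_comp` give
`levi ≥ ε * sp'' (u + T) * |dv u| ^ 2`; outside `-1 ≤ u + T ≤ 0` the derivative of `bc` vanishes.
`gz_M`: if `gzM ≠ 0` then `wE ≤ wP S₀ ≤ exp (-T)` and
`wP S ≥ wE ≥ wP S₀ / C - exp (-S₀) ≥ exp (-T - 1) / (2 C)`; `sp ≥ 0`.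
Auxiliary names start with `gzw_`. -/

open MeasureTheory Set Filter Topology
open scoped ContDiff ENNReal ComplexConjugate

noncomputable section

namespace Vale.Agent.P271

section

variable {Ω ι : Type} [Fintype ι] (s : ι → Ω → ℂ) (a : ι → ℝ) (φ : Ω → ℝ) (g : Ω → ℂ)

/-- The weights. -/
def gzφ (c ε T S₀ : ℝ) (S : ℕ) (w : Ω) : ℝ :=
  φ w + c * Real.log (wP s a S w) + ε * sp (Real.log (wP s a S₀ w) + T)

/-- The function whose `dbar` is estimated. -/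
def gzg (T S₀ : ℝ) (w : Ω) : ℂ := (bc (Real.log (wP s a S₀ w) + T) : ℂ) * g w

/-- The bound for the `dbar`. -/
def gzM (B T S₀ : ℝ) (w : Ω) : ℝ :=
  if Real.exp (-T - 1) ≤ wP s a S₀ w ∧ wP s a S₀ w ≤ Real.exp (-T) then B * ‖g w‖ ^ 2 else 0

theorem gz_anti {c : ℝ} (hc : 0 ≤ c) (ε T S₀ : ℝ) (w : Ω) :
    Antitone fun S => gzφ s a φ c ε T S₀ S w := fun S S' h => by
  have h1 := Real.log_le_log (wP_pos s a w S') (wP_anti s a w (Nat.cast_le.2 h : (S : ℝ) ≤ S'))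
  have h2 := mul_le_mul_of_nonneg_left h1 hc
  simp only [gzφ]
  linarith

theorem gz_exp (c ε T S₀ : ℝ) (S : ℕ) (w : Ω) : Real.exp (-gzφ s a φ c ε T S₀ S w) =
    Real.exp (-φ w - ε * sp (Real.log (wP s a S₀ w) + T)) * wP s a S w ^ (-c) := by
  rw [Real.rpow_def_of_pos (wP_pos s a w S), ← Real.exp_add, gzφ]
  congr 1
  ring

theorem gzw_exp {c ε : ℝ} (hc : 0 ≤ c) (hε : 0 ≤ ε) (T S₀ : ℝ) (S : ℕ) (w : Ω) {L : ℝ}
    (h : Real.exp (-L) ≤ wP s a S w) :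
    Real.exp (-gzφ s a φ c ε T S₀ S w) ≤ Real.exp (c * L) * Real.exp (-φ w) := by
  have h1 := mul_le_mul_of_nonneg_left ((Real.le_log_iff_exp_le (wP_pos s a w S)).2 h) hc
  have h2 := mul_nonneg hε (sp_nonneg (Real.log (wP s a S₀ w) + T))
  rw [← Real.exp_add, Real.exp_le_exp, gzφ]
  linarith

theorem gz_exp_le {c ε : ℝ} (hc : 0 ≤ c) (hε : 0 ≤ ε) (T S₀ : ℝ) (S : ℕ) (w : Ω) :
    Real.exp (-gzφ s a φ c ε T S₀ S w) ≤ Real.exp (c * S) * Real.exp (-φ w) :=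
  gzw_exp s a φ hc hε T S₀ S w (exp_le_wP s a w S)

theorem gz_M {c ε B T S₀ C : ℝ} (hc : 0 ≤ c) (hε : 0 ≤ ε) (hB : 0 ≤ B) (hC : 1 ≤ C) (w : Ω)
    (h : wP s a S₀ w ≤ C * (wE s a w + Real.exp (-S₀))) (hS : T + 1 + Real.log (2 * C) ≤ S₀)
    (S : ℕ) : gzM s a g B T S₀ w * Real.exp (-gzφ s a φ c ε T S₀ S w) ≤
      {w | wE s a w ≤ Real.exp (-T)}.indicator
        (fun w => B * (2 * C * Real.exp (T + 1)) ^ c * (‖g w‖ ^ 2 * Real.exp (-φ w))) w := by
  have hK : 0 < 2 * C * Real.exp (T + 1) := by positivity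
  unfold gzM
  split_ifs with h1
  · rw [indicator_of_mem (show w ∈ {w | wE s a w ≤ Real.exp (-T)} from
      (wE_le_wP s a w S₀).trans h1.2)]
    have h0 : 0 < 2 * C := by linarith
    have h2 : Real.exp (-Real.log (2 * C * Real.exp (T + 1))) = Real.exp (-T - 1) / (2 * C) := by
      rw [Real.log_mul h0.ne' (Real.exp_pos _).ne', Real.log_exp, neg_add, Real.exp_add,
        Real.exp_neg (Real.log _), Real.exp_log h0, inv_mul_eq_div, neg_add']
    have h3 : Real.exp (-S₀) ≤ Real.exp (-T - 1) / (2 * C) := by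
      rw [← h2, Real.log_mul h0.ne' (Real.exp_pos _).ne', Real.log_exp, Real.exp_le_exp]
      linarith
    have h4 := gzw_exp s a φ hc hε T S₀ S w (L := Real.log (2 * C * Real.exp (T + 1))) (by
      rw [h2]
      refine le_trans ?_ (wE_le_wP s a w S)
      rw [le_div_iff₀ h0] at h3
      rw [div_le_iff₀ h0]
      linarith [h1.1.trans h])
    rw [mul_comm c, ← Real.rpow_def_of_pos hK] at h4
    have h5 := mul_le_mul_of_nonneg_left h4 (mul_nonneg hB (sq_nonneg ‖g w‖))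
    linarith
  · rw [zero_mul]
    exact indicator_nonneg (fun w _ => by positivity) w

theorem gz_low {c ε T S₀ P : ℝ} (hc : 0 ≤ c) (hε : 0 ≤ ε) (hT : 0 ≤ T) (hS : 0 ≤ S₀) (hP : 1 ≤ P)
    (w : Ω) (h : wP s a 0 w ≤ P) : Real.exp (-φ w) ≤
      P ^ (c + ε) * Real.exp (ε * (T + 1)) * Real.exp (-gzφ s a φ c ε T S₀ 0 w) := by
  have h0 : 0 < P := one_pos.trans_le hP
  have h1 := Real.log_le_log (wP_pos s a w 0) h
  have h2 := Real.log_le_log (wP_pos s a w S₀) ((wP_anti s a w hS).trans h)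
  have h3 := Real.log_nonneg hP
  have h4 : sp (Real.log (wP s a S₀ w) + T) ≤ Real.log P + T + 1 :=
    (sp_le _).trans (add_le_add (max_le (add_le_add h2 le_rfl) (add_nonneg h3 hT)) le_rfl)
  have h5 := mul_le_mul_of_nonneg_left h1 hc
  have h6 := mul_le_mul_of_nonneg_left h4 hε
  rw [Real.rpow_def_of_pos h0, ← Real.exp_add, ← Real.exp_add, Real.exp_le_exp, gzφ,
    Nat.cast_zero]
  linarith

theorem gzg_le (T S₀ : ℝ) (w : Ω) :
    ‖gzg s a g T S₀ w‖ ^ 2 ≤ {w | wE s a w ≤ Real.exp (-T)}.indicator (fun w => ‖g w‖ ^ 2) w := by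
  by_cases h : w ∈ {w | wE s a w ≤ Real.exp (-T)}
  · obtain ⟨h1, h2⟩ := bc_mem (Real.log (wP s a S₀ w) + T)
    rw [indicator_of_mem h, gzg, norm_mul, Complex.norm_real, Real.norm_of_nonneg h1]
    exact pow_le_pow_left₀ (by positivity) (mul_le_of_le_one_left (norm_nonneg _) h2) 2
  · have h1 := (Real.le_log_iff_exp_le (wP_pos s a w S₀)).2
      ((not_le.1 h).le.trans (wE_le_wP s a w S₀))
    rw [indicator_of_notMem h, gzg, bc_zero (by linarith)]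
    simp

end

namespace EtDom

variable {n : ℕ} {Ω : Type} [TopologicalSpace Ω] [T2Space Ω] [SecondCountableTopology Ω]
  [MeasurableSpace Ω] [BorelSpace Ω] {D : EtDom n Ω}

variable {ι : Type} [Fintype ι] {s : ι → Ω → ℂ} (a : ι → ℝ) {φ : Ω → ℝ} {g : Ω → ℂ} {w : Ω}

theorem gzw_shift {χ : ℝ → ℝ} (h : ContDiff ℝ ∞ χ) (T x : ℝ) :
    ContDiffAt ℝ ∞ (fun σ => χ (σ + T)) x :=
  (h.comp (contDiff_id.add contDiff_const)).contDiffAt

theorem gzw_psh (hs : ∀ i, D.HolAt (s i) w) (T S₀ : ℝ) :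
    D.Psh (fun w => sp (Real.log (wP s a S₀ w) + T)) w :=
  (psh_log_wP hs a S₀).comp (gzw_shift sp_smooth T _)
    ((deriv_shift sp T _).1 ▸ sp_d1 _) ((deriv_shift sp T _).2 ▸ sp_d2 _)

theorem gz_psh (hs : ∀ i, D.HolAt (s i) w) (hφ : D.Psh φ w) {c ε : ℝ} (hc : 0 ≤ c) (hε : 0 ≤ ε)
    (T S₀ : ℝ) (S : ℕ) : D.Psh (gzφ s a φ c ε T S₀ S) w :=
  (hφ.add ((psh_log_wP hs a S).smul hc)).add ((gzw_psh a hs T S₀).smul hε)

theorem gzg_sm (hs : ∀ i, D.HolAt (s i) w) (hg : D.HolAt g w) (T S₀ : ℝ) :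
    D.SmAt (gzg s a g T S₀) w :=
  ((psh_log_wP hs a S₀).1.comp (gzw_shift bc_smooth T _)).ofReal.mul hg.smAt

theorem gz_levi (hs : ∀ i, D.HolAt (s i) w) (hφ : D.Psh φ w) (hg : D.HolAt g w) {c ε B : ℝ}
    (hc : 0 ≤ c) (hε : 0 < ε) (hB : ∀ τ, deriv bc τ ^ 2 ≤ B * deriv (deriv sp) τ) (hB0 : 0 ≤ B)
    (T S₀ : ℝ) (S : ℕ) (v : E n) : ‖∑ j, D.db j (gzg s a g T S₀) w * conj (v j)‖ ^ 2 ≤
      gzM s a g (B / ε) T S₀ w * D.levi (gzφ s a φ c ε T S₀ S) w v := by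
  have hu := psh_log_wP hs a S₀
  have h1 := dbar_cut v hu.1 (gzw_shift bc_smooth T _) hg.smAt
  simp only [hg.db_eq, zero_mul, Finset.sum_const_zero, mul_zero, add_zero,
    (deriv_shift bc T _).1] at h1
  have h2 := hφ.add ((psh_log_wP hs a S).smul hc)
  have h3 := levi_add v h2.1 ((gzw_psh a hs T S₀).smul hε.le).1
  rw [levi_smul v (gzw_psh a hs T S₀).1, levi_comp v hu.1 (gzw_shift sp_smooth T _),
    (deriv_shift sp T _).1, (deriv_shift sp T _).2] at h3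
  have h4 : ε * (deriv (deriv sp) (Real.log (wP s a S₀ w) + T) *
      ‖D.dv (fun w => Real.log (wP s a S₀ w)) w v‖ ^ 2) ≤
      D.levi (gzφ s a φ c ε T S₀ S) w v := by
    have h5 := mul_nonneg hε.le (mul_nonneg (sp_d1 (Real.log (wP s a S₀ w) + T)) (hu.2 v))
    have h6 := h2.2 v
    refine le_trans ?_ h3.ge
    linarith
  rw [show ∑ j, D.db j (gzg s a g T S₀) w * conj (v j) = _ from h1, norm_mul, norm_mul,
    Complex.norm_real, Complex.norm_conj, mul_pow, mul_pow, Real.norm_eq_abs, sq_abs]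
  unfold gzM
  split_ifs with h5
  · refine le_trans ?_ (mul_le_mul_of_nonneg_left h4 (by positivity))
    have h6 := mul_le_mul_of_nonneg_right (hB (Real.log (wP s a S₀ w) + T))
      (mul_nonneg (sq_nonneg ‖g w‖) (sq_nonneg ‖D.dv (fun w => Real.log (wP s a S₀ w)) w v‖))
    refine (mul_assoc _ _ _).le.trans (h6.trans_eq ?_)
    field_simp
  · rw [bc_deriv_zero (τ := Real.log (wP s a S₀ w) + T) ?_]
    · simp
    · rw [← Real.le_log_iff_exp_le (wP_pos s a w S₀), ← Real.log_le_iff_le_exp (wP_pos s a w S₀),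
        not_and_or, not_le, not_le] at h5
      exact h5.imp (fun h => by linarith) fun h => by linarith

end EtDom

end Vale.Agent.P271
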