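import Vale.Agent.P271.G.GZ0
import Vale.Agent.P271.H.Remov

/-! P271 G/P3: subadditivity of singularity exponents.

Plan. `ni_one`: suppose the integral over `N` is finite; shrink `N` to an open `W` where `f` is
holomorphic. `removable` for `Q = f`, `r = f⁻¹` gives `R` holomorphic with `R f = 1` where `f ≠ 0`; by
continuity at `z`, `|R f| < 1` near `z`, so `f = 0` near `z` and `ni_zero` applies.
`adm_add_one`: suppose `G = wE s a + |f| ^ (2 / σ)` has finite `γ`-integral near `z`, `γ > c + σ`; take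
`W` from `stein_nhds`. Apply `gz` to the family `fun _ : Unit => f` with weight `1` (`wE_one`),
exponent `1`, level `σ T`, `φ = γ log (wP s a T)`, `g = 1`: where `|f| ^ 2 ≤ exp (-σ T)`,
`G ≤ wE + exp (-T) ≤ 2 wP s a T`, so the integral on the right is at most `2 ^ γ I`. The function `G₁`
obtained has `G₁ z = 1`; on `{wE ≤ exp (-T)}`, `wP ≤ 2 C₁ exp (-T)`, so
`∫ |G₁| ^ 2 ≤ C exp (((1 + ε) σ - γ) T)` there; `wP` is bounded on `W`, so `G₁` is square integrable.
`gz0` with exponent `c + ε` gives `1 ≤ C exp ((c + 2 ε + (1 + ε) σ - γ) T)`, false for small `ε`, large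
`T`. `adm_add`: induction on `d` (for all finite families; compare with `wE_elim`,
`Fin.sum_univ_succ`, `Adm.of_le`). Auxiliary names start with `p3_`. -/

open MeasureTheory Set Filter Topology
open scoped ContDiff ENNReal ComplexConjugate

noncomputable section

namespace Vale.Agent.P271

namespace EtDom

variable {n : ℕ} {Ω : Type} [TopologicalSpace Ω] [T2Space Ω] [SecondCountableTopology Ω]
  [MeasurableSpace Ω] [BorelSpace Ω] {D : EtDom n Ω}

variable {ι : Type} [Fintype ι] {s : ι → Ω → ℂ} {a : ι → ℝ} {z : Ω} {c σ : ℝ}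

theorem ni_one {f : Ω → ℂ} (hf : D.HolAt f z) (h0 : f z = 0) :
    D.NI (fun w => ‖f w‖ ^ 2) z 1 := by
  intro N hN
  by_contra hne
  obtain ⟨W, hW, ho, hz⟩ := mem_nhds_iff.1 (inter_mem hN hf.eventually)
  obtain ⟨R, hR, hR'⟩ := removable ho (Q := f) (r := fun w => (f w)⁻¹) (fun w hw => (hW hw).2)
    (fun w hw h => (hW hw).2.inv h) fun w hw => ⟨W, ho.mem_nhds hw, ne_top_of_le_ne_top hne
      ((lintegral_mono fun w => by
        rw [ENNReal.rpow_neg_one, norm_inv, inv_pow]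
        exact ENNReal.ofReal_inv_le).trans (lintegral_mono_set fun w hw => (hW hw.1).1))⟩
  have h1 := ((hR z hz).mul hf).smAt.continuousAt.norm.eventually
    (gt_mem_nhds (show ‖R z * f z‖ < 1 by simp [h0]))
  refine hne (ni_zero one_pos ((h1.and (ho.mem_nhds hz)).mono fun w hw => ?_) N hN)
  by_cases h : f w = 0
  · simp [h]
  · have h2 := hw.1
    simp [hR' w hw.2 h, h] at h2

theorem p3_bdd (hs : ∀ i, D.HolAt (s i) z) :
    ∃ R : ℝ, ∀ᶠ w in 𝓝 z, ∀ i, D.HolAt (s i) w ∧ ‖s i w‖ ≤ R :=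
  ⟨∑ i, ‖s i z‖ + 1, eventually_all.2 fun i => (hs i).eventually.and
    (((hs i).smAt.continuousAt.norm.eventually (gt_mem_nhds (lt_add_of_le_of_pos
      (Finset.single_le_sum (f := fun i => ‖s i z‖) (fun _ _ => norm_nonneg _)
        (Finset.mem_univ i)) one_pos))).mono fun _ h => h.le)⟩

theorem p3_meas {W : Set Ω} (hW : IsOpen W) (hs : ∀ i, ∀ w ∈ W, D.HolAt (s i) w) (t : ℝ) :
    MeasurableSet (W ∩ {w | wE s a w ≤ t}) := by
  have h1 : ContinuousOn (wE s a) W := fun w hw =>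
    (wE_continuousAt s a w fun i => (hs i w hw).smAt.continuousAt).continuousWithinAt
  have h2 := hW.measurableSet.diff (h1.isOpen_inter_preimage hW (isOpen_Ioi (a := t))).measurableSet
  rwa [show W \ (W ∩ wE s a ⁻¹' Ioi t) = W ∩ {w | wE s a w ≤ t} by
    ext w
    simp only [Set.mem_sdiff, mem_inter_iff, mem_preimage, mem_Ioi, mem_ofPred_eq, not_and, not_lt]
    tauto] at h2

theorem p3_exp {P γ : ℝ} (hP : 0 < P) : Real.exp (-(γ * Real.log P)) = (P ^ γ)⁻¹ := by
  rw [Real.exp_neg, Real.rpow_def_of_pos hP, mul_comm]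

theorem p3_sq {W A : Set Ω} (hA : MeasurableSet A) (hAW : A ⊆ W) {P : Ω → ℝ} {K γ : ℝ}
    (hγ : 0 ≤ γ) (h0 : ∀ w, 0 < P w) (hK : ∀ w ∈ A, P w ≤ K) (G : Ω → ℂ) :
    ∫⁻ w in A, ENNReal.ofReal (‖G w‖ ^ 2) ∂D.ν ≤ ENNReal.ofReal (K ^ γ) *
      ∫⁻ w in W, ENNReal.ofReal (‖G w‖ ^ 2 * Real.exp (-(γ * Real.log (P w)))) ∂D.ν := by
  rw [← lintegral_const_mul' _ _ ENNReal.ofReal_ne_top]
  refine (setLIntegral_mono' hA fun w hw => ?_).trans (lintegral_mono_set hAW)
  have h1 := Real.rpow_pos_of_pos (h0 w) γ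
  have h2 := Real.rpow_le_rpow (h0 w).le (hK w hw) hγ
  rw [← ENNReal.ofReal_mul (h1.le.trans h2), p3_exp (h0 w), mul_left_comm]
  exact ENNReal.ofReal_le_ofReal (le_mul_of_one_le_right (sq_nonneg _) ((one_le_div h1).2 h2))

theorem p3_two {P G γ : ℝ} (hγ : 0 ≤ γ) (hP : 0 < P) (h : G ≤ 2 * P) :
    ENNReal.ofReal (‖(1 : ℂ)‖ ^ 2 * Real.exp (-(γ * Real.log P))) ≤
      ENNReal.ofReal (2 ^ γ) * ENNReal.ofReal G ^ (-γ) := by
  refine le_trans (le_of_eq ?_) (mul_le_mul_right (gb_anti (ENNReal.ofReal_le_ofReal h) hγ) _)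
  have h1 : (0 : ℝ) < 2 ^ γ := by positivity
  rw [ENNReal.ofReal_rpow_of_pos (by positivity), ← ENNReal.ofReal_mul h1.le, p3_exp hP,
    Real.rpow_neg (by positivity), Real.mul_rpow zero_le_two hP.le, mul_inv,
    mul_inv_cancel_left₀ h1.ne', norm_one, one_pow, one_mul]

theorem adm_add_one (hs : ∀ i, D.HolAt (s i) z) (hc : 0 ≤ c) (h : D.Adm (wE s a) z c) {f : Ω → ℂ}
    (hf : D.HolAt f z) (h0 : f z = 0) (hσ : 0 < σ) :
    D.Adm (fun w => wE s a w + ‖f w‖ ^ (2 / σ)) z (c + σ) := by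
  intro γ hγ N hN
  by_contra hne
  have := D.finiteOnCompacts
  obtain ⟨ε, hε, hε'⟩ : ∃ ε : ℝ, 0 < ε ∧ γ = c + σ + ε * (3 + σ) :=
    ⟨(γ - c - σ) / (3 + σ), div_pos (by linarith) (by linarith), by field_simp; ring⟩
  have hγ0 : 0 ≤ γ := by linarith
  obtain ⟨R, hR⟩ := p3_bdd hs
  obtain ⟨R', hR'⟩ := p3_bdd (s := fun _ : Unit => f) fun _ => hf
  obtain ⟨W, hW, hz, hWN, hK⟩ := stein_nhds (D := D) (inter_mem hN (hR.and hR'))
  have hW' := fun w (hw : w ∈ W) => hWN (subset_closure hw)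
  obtain ⟨C₁, hC₁, hle⟩ := wP_le a
  obtain ⟨C₂, hC₂, H₂⟩ := gz (D := D) (fun _ : Unit => (1 : ℝ)) R' one_pos hε
  obtain ⟨C₃, hC₃, N', hN', H₃⟩ := gz0 a R (add_pos_of_nonneg_of_pos hc hε) hε hW hz
  set I := ∫⁻ w in N, ENNReal.ofReal (wE s a w + ‖f w‖ ^ (2 / σ)) ^ (-γ) ∂D.ν with hI
  have key : ∀ T : ℝ, 0 ≤ T →
      Real.exp (ε * T) ≤ C₃ * (2 * C₁) ^ γ * C₂ * 2 ^ γ * I.toReal := fun T hT => by
    obtain ⟨G, hG, hG1, hG2⟩ := H₂ W hW (fun _ => f) (fun i w hw => (hW' w hw).2.2 i) z hz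
      (by simpa only [funext (wE_one fun _ : Unit => f), Finset.univ_unique, Finset.sum_singleton]
        using ni_one hf h0) (σ * T) (by positivity) (fun w => γ * Real.log (wP s a T w))
      (fun w hw => (psh_log_wP (fun i => ((hW' w hw).2.1 i).1) a T).smul hγ0) (fun _ => 1)
      (fun w _ => holAt_const 1) (by
        refine ne_top_of_le_ne_top ?_ (lintegral_mono (g := fun _ =>
          ENNReal.ofReal (Real.exp (γ * T))) fun w => ENNReal.ofReal_le_ofReal ?_)
        · rw [setLIntegral_const]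
          exact ENNReal.mul_ne_top ENNReal.ofReal_ne_top
            ((measure_mono subset_closure).trans_lt hK.measure_lt_top).ne
        · have h1 := mul_le_mul_of_nonneg_left
            ((Real.le_log_iff_exp_le (wP_pos s a w T)).2 (exp_le_wP s a w T)) hγ0
          rw [norm_one, one_pow, one_mul, Real.exp_le_exp]
          linarith)
    have hJ := hG2.trans (mul_le_mul_right ((setLIntegral_mono'
      (p3_meas hW.1 (fun i w hw => ((hW' w hw).2.2 i).1) _) fun w hw => p3_two hγ0 (wP_pos s a w T)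
        (G := wE s a w + ‖f w‖ ^ (2 / σ)) (by
          have h1 : ‖f w‖ ^ 2 ≤ Real.exp (-(σ * T)) := by simpa [wE_one] using hw.2
          have h2 := Real.rpow_le_rpow (sq_nonneg _) h1 (inv_pos.2 hσ).le
          rw [← Real.exp_mul, ← Real.rpow_natCast, ← Real.rpow_mul (norm_nonneg _),
            show -(σ * T) * σ⁻¹ = -T by field_simp, Nat.cast_ofNat, ← div_eq_mul_inv] at h2
          linarith [wE_le_wP s a w T, exp_le_wP s a w T])).trans
      (lintegral_mono_set (t := N) fun w hw => (hW' w hw.1).1)) _)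
    rw [lintegral_const_mul' _ _ ENNReal.ofReal_ne_top, ← hI] at hJ
    have h1 := p3_sq (D := D) hW.1.measurableSet subset_rfl hγ0 (fun w => wP_pos s a w T)
      (K := C₁ * (∑ i, max R 1 ^ (2 / a i) + Real.exp (-T))) (fun w hw => (hle Ω s T w).trans
        (mul_le_mul_of_nonneg_left (add_le_add (wE_le s a w fun i => ((hW' w hw).2.1 i).2) le_rfl)
          (by linarith))) G
    have h2 := p3_sq (D := D) (p3_meas (a := a) hW.1 (fun i w hw => ((hW' w hw).2.1 i).1)
      (Real.exp (-T))) inter_subset_left hγ0 (fun w => wP_pos s a w T)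
      (K := 2 * C₁ * Real.exp (-T)) (fun w hw => (hle Ω s T w).trans (by
        have h3 : wE s a w ≤ Real.exp (-T) := hw.2
        nlinarith)) G
    have h3 := (H₃ s (fun i w hw => (hW' w hw).2.1 i) z (mem_of_mem_nhds hN')
      (h _ (by linarith)) T hT G hG (ne_top_of_le_ne_top (ENNReal.mul_ne_top ENNReal.ofReal_ne_top
        (ENNReal.mul_ne_top ENNReal.ofReal_ne_top (ENNReal.mul_ne_top ENNReal.ofReal_ne_top hne)))
        (h1.trans (mul_le_mul_right hJ _)))).trans
      (mul_le_mul_right (h2.trans (mul_le_mul_right hJ _)) _)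
    rw [← ENNReal.ofReal_toReal hne, ← ENNReal.ofReal_mul (by positivity),
      ← ENNReal.ofReal_mul (by positivity), ← ENNReal.ofReal_mul (by positivity),
      ← ENNReal.ofReal_mul (by positivity), ENNReal.ofReal_le_ofReal_iff (by positivity), hG1,
      norm_one, one_pow, Real.mul_rpow (by positivity) (Real.exp_pos _).le, ← Real.exp_mul] at h3
    have h4 : Real.exp (ε * T) * (Real.exp ((c + ε + ε) * T) * Real.exp (-T * γ) *
        Real.exp ((1 + ε) * (σ * T))) = 1 := by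
      rw [← Real.exp_add, ← Real.exp_add, ← Real.exp_add, Real.exp_eq_one_iff, hε']
      ring
    have h5 := mul_le_mul_of_nonneg_left h3 (Real.exp_pos (ε * T)).le
    linear_combination h5 + C₃ * (2 * C₁) ^ γ * C₂ * 2 ^ γ * I.toReal * h4
  have h1 := key (C₃ * (2 * C₁) ^ γ * C₂ * 2 ^ γ * I.toReal / ε) (by positivity)
  rw [mul_div_cancel₀ _ hε.ne'] at h1
  linarith [Real.add_one_le_exp (C₃ * (2 * C₁) ^ γ * C₂ * 2 ^ γ * I.toReal)]

theorem adm_add (hs : ∀ i, D.HolAt (s i) z) (hc : 0 ≤ c) (h : D.Adm (wE s a) z c) {d : ℕ}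
    {f : Fin d → Ω → ℂ} (hf : ∀ j, D.HolAt (f j) z ∧ f j z = 0) (hσ : 0 < σ) :
    D.Adm (wE (Sum.elim s f) (Sum.elim a fun _ => σ)) z (c + σ * d) := by
  induction d with
  | zero =>
    rw [funext (wE_elim s a · f fun _ => σ)]
    simpa [wE.eq_def f] using h
  | succ d ih =>
    have h1 := adm_add_one (s := Sum.elim s fun j : Fin d => f j.succ)
      (fun i => i.rec hs fun j => (hf j.succ).1) (by positivity) (ih fun j => hf j.succ)
      (hf 0).1 (hf 0).2 hσ
    rw [show c + σ * (d + 1 : ℕ) = c + σ * d + σ by push_cast; ring,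
      show wE (Sum.elim s f) (Sum.elim a fun _ => σ) = fun w =>
        wE (Sum.elim s fun j : Fin d => f j.succ) (Sum.elim a fun _ => σ) w +
          ‖f 0 w‖ ^ (2 / σ) from funext fun w => by
        rw [wE_elim, wE_elim, wE.eq_def f, wE.eq_def fun j : Fin d => f j.succ, Fin.sum_univ_succ,
          if_pos hσ]
        ring]
    exact h1

end EtDom

end Vale.Agent.P271
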