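import Vale.Agent.P271.G.Basic
import Vale.Agent.P271.H.Psh

/-! P271 G/Reg: smooth approximation of `wE` from above.

Plan. `wP_le`: `(x + y) ^ r ≤ 2 ^ r (x ^ r + y ^ r)` via `x + y ≤ 2 max x y`. `psh_log_wP`: write `wP` as
`∑ exp (u i)` over `none` and the indices of positive weight (a finset of `Option ι`), with
`u none = -S`, `u (some i) = (1 / a i) * log (exp (-(a i * S)) + |s i| ^ 2)` (`psh_log_sq` with index
`Unit`, `Psh.smul`), then `psh_lse`. `lint_limit`: monotone convergence (`lintegral_iSup_ae` or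
`lintegral_tendsto_of_tendsto_of_monotone`; measurability from continuity on the open set); if
`wE = 0` and `f > 0` both sides tend to `⊤`. `force`: if `f z > 0` then `f ≥ f z / 2` on an open
`N ⊆ W`; apply `lint_limit` on `N` to the constant. Auxiliary names start with `reg_`. -/

open MeasureTheory Set Filter Topology
open scoped ContDiff ENNReal ComplexConjugate

noncomputable section

namespace Vale.Agent.P271

/-- Smooth positive approximation of `wE`. -/
def wP {Ω ι : Type} [Fintype ι] (s : ι → Ω → ℂ) (a : ι → ℝ) (S : ℝ) (z : Ω) : ℝ :=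
  Real.exp (-S) + ∑ i, if 0 < a i then (‖s i z‖ ^ 2 + Real.exp (-(a i * S))) ^ (1 / a i) else 0

section

variable {Ω ι : Type} [Fintype ι] (s : ι → Ω → ℂ) (a : ι → ℝ) (z : Ω)

theorem reg_sq {x : ℝ} (hx : 0 ≤ x) (b : ℝ) : (x ^ 2) ^ (1 / b) = x ^ (2 / b) := by
  rw [← Real.rpow_two, ← Real.rpow_mul hx, mul_one_div]

theorem reg_two {x y r : ℝ} (hx : 0 ≤ x) (hy : 0 ≤ y) (hr : 0 ≤ r) :
    (x + y) ^ r ≤ 2 ^ r * (x ^ r + y ^ r) := by
  wlog h : x ≤ y generalizing x y
  · rw [add_comm x, add_comm (x ^ r)]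
    exact this hy hx (le_of_not_ge h)
  calc (x + y) ^ r ≤ (2 * y) ^ r := Real.rpow_le_rpow (by positivity) (by linarith) hr
    _ = 2 ^ r * y ^ r := Real.mul_rpow zero_le_two hy
    _ ≤ _ := mul_le_mul_of_nonneg_left (le_add_of_nonneg_left (by positivity)) (by positivity)

theorem exp_le_wP (S : ℝ) : Real.exp (-S) ≤ wP s a S z := by
  refine le_add_of_nonneg_right (Finset.sum_nonneg fun i _ => ?_)
  split_ifs
  · positivity
  · exact le_rfl

theorem wP_pos (S : ℝ) : 0 < wP s a S z := (Real.exp_pos _).trans_le (exp_le_wP s a z S)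

theorem wE_le_wP (S : ℝ) : wE s a z ≤ wP s a S z := by
  refine le_add_of_nonneg_of_le (Real.exp_pos _).le (Finset.sum_le_sum fun i _ => ?_)
  split_ifs with hi
  · rw [← reg_sq (norm_nonneg _)]
    exact Real.rpow_le_rpow (by positivity) (le_add_of_nonneg_right (Real.exp_pos _).le)
      (by positivity)
  · exact le_rfl

theorem wP_anti : Antitone fun S => wP s a S z := by
  intro S S' h
  refine add_le_add (Real.exp_le_exp.2 (neg_le_neg h)) (Finset.sum_le_sum fun i _ => ?_)
  split_ifs with hi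
  · exact Real.rpow_le_rpow (by positivity) (add_le_add_right
      (Real.exp_le_exp.2 (neg_le_neg (mul_le_mul_of_nonneg_left h hi.le))) _) (by positivity)
  · exact le_rfl

theorem wP_tendsto : Tendsto (fun S : ℕ => wP s a S z) atTop (𝓝 (wE s a z)) := by
  rw [← zero_add (wE s a z)]
  refine (Real.tendsto_exp_neg_atTop_nhds_zero.comp tendsto_natCast_atTop_atTop).add
    (tendsto_finsetSum _ fun i _ => ?_)
  split_ifs with hi
  · have h1 := ((Real.tendsto_exp_neg_atTop_nhds_zero.comp
      ((tendsto_natCast_atTop_atTop (R := ℝ)).const_mul_atTop hi)).const_add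
        (‖s i z‖ ^ 2)).rpow_const (p := 1 / a i) (.inr (by positivity))
    rwa [add_zero, reg_sq (norm_nonneg _)] at h1
  · exact tendsto_const_nhds

theorem wP_le : ∃ C : ℝ, 1 ≤ C ∧ ∀ (Ω : Type) (s : ι → Ω → ℂ) (S : ℝ) (z : Ω),
    wP s a S z ≤ C * (wE s a z + Real.exp (-S)) := by
  refine ⟨1 + ∑ i, 2 ^ (1 / a i),
    le_add_of_nonneg_right (Finset.sum_nonneg fun i _ => by positivity), fun Ω s S z => ?_⟩
  have h0 := wE_nonneg s a z
  have h1 := Real.exp_pos (-S)
  rw [add_mul, one_mul, Finset.sum_mul]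
  refine add_le_add (le_add_of_nonneg_left h0) (Finset.sum_le_sum fun i _ => ?_)
  split_ifs with hi
  · refine (reg_two (by positivity) (by positivity) (by positivity)).trans
      (mul_le_mul_of_nonneg_left (add_le_add ?_ (le_of_eq ?_)) (by positivity))
    · have := Finset.single_le_sum (fun j _ => gb_term s a z j) (Finset.mem_univ i)
      rwa [if_pos hi, ← reg_sq (norm_nonneg _)] at this
    · rw [← Real.exp_mul]
      congr 1
      field_simp
  · positivity

theorem wP_continuousAt [TopologicalSpace Ω] (hs : ∀ i, ContinuousAt (s i) z) (S : ℝ) :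
    ContinuousAt (wP s a S) z := by
  refine tendsto_const_nhds.add (tendsto_finsetSum _ fun i _ => ?_)
  split_ifs with hi
  · exact (((hs i).norm.pow 2).add continuousAt_const).rpow_const (.inr (by positivity))
  · exact tendsto_const_nhds

end

namespace EtDom

variable {n : ℕ} {Ω : Type} [TopologicalSpace Ω] [T2Space Ω] [SecondCountableTopology Ω]
  [MeasurableSpace Ω] [BorelSpace Ω] {D : EtDom n Ω}

variable {ι : Type} [Fintype ι] {s : ι → Ω → ℂ} {a : ι → ℝ} {z : Ω} {W : Set Ω} {c : ℝ}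

theorem psh_log_wP (hs : ∀ i, D.HolAt (s i) z) (a : ι → ℝ) (S : ℝ) :
    D.Psh (fun w => Real.log (wP s a S w)) z := by
  classical
  have h1 := psh_lse (D := D) (z := z)
    (s := Finset.insertNone (Finset.univ.filter fun i => 0 < a i)) ⟨none, by simp⟩
    (u := fun o w => o.elim (-S) fun i =>
      1 / a i * Real.log (Real.exp (-(a i * S)) + ∑ _ : Unit, ‖s i w‖ ^ 2)) (by
      rintro (_ | i) hi
      · exact psh_const _
      · have h2 : 0 < a i := by simpa using hi
        exact (psh_log_sq (s := fun _ : Unit => s i) (fun _ => hs i) (Real.exp_pos _)).smul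
          (by positivity))
  refine h1.congr (Eventually.of_forall fun w => congrArg Real.log ?_)
  rw [Finset.sum_insertNone, wP, Finset.sum_filter]
  refine congrArg₂ _ rfl (Finset.sum_congr rfl fun i _ => ?_)
  split_ifs
  · rw [Real.rpow_def_of_pos (by positivity), add_comm, mul_comm]
    simp
  · rfl

theorem lint_limit (hW : IsOpen W) (hs : ∀ i, ContinuousOn (s i) W) (hc : 0 < c) {f : Ω → ℝ}
    (hf : ContinuousOn f W) {C : ℝ≥0∞}
    (h : ∀ S : ℕ, ∫⁻ w in W, ENNReal.ofReal (f w * wP s a S w ^ (-c)) ∂D.ν ≤ C) :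
    ∫⁻ w in W, ENNReal.ofReal (f w) * ENNReal.ofReal (wE s a w) ^ (-c) ∂D.ν ≤ C := by
  have e : ∀ (S : ℕ) w, ENNReal.ofReal (f w * wP s a S w ^ (-c)) =
      ENNReal.ofReal (f w) * ENNReal.ofReal (wP s a S w) ^ (-c) := fun S w => by
    rw [ENNReal.ofReal_mul' (Real.rpow_nonneg (wP_pos s a w S).le _),
      ENNReal.ofReal_rpow_of_pos (wP_pos s a w S)]
  simp only [e] at h
  refine le_of_tendsto' (lintegral_tendsto_of_tendsto_of_monotone (fun S => ?_)
    (Eventually.of_forall fun w S S' hS => ?_) (Eventually.of_forall fun w => ?_)) h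
  · have h1 : ContinuousOn (wP s a S) W := fun w hw =>
      (wP_continuousAt s a w (fun i => (hs i).continuousAt (hW.mem_nhds hw)) _).continuousWithinAt
    exact (hf.aemeasurable hW.measurableSet).ennreal_ofReal.mul
      ((h1.aemeasurable hW.measurableSet).ennreal_ofReal.pow_const _)
  · exact mul_le_mul_right (gb_anti
      (ENNReal.ofReal_le_ofReal (wP_anti s a w (Nat.cast_le.2 hS))) hc.le) _
  · exact ENNReal.Tendsto.const_mul ((ENNReal.continuous_rpow_const.tendsto _).comp
      (ENNReal.tendsto_ofReal (wP_tendsto s a w))) (.inr ENNReal.ofReal_ne_top)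

theorem force (hW : IsOpen W) (hz : z ∈ W) (hs : ∀ i, ContinuousOn (s i) W) (hc : 0 < c)
    (hN : D.NI (wE s a) z c) {f : Ω → ℝ} (hf : ContinuousAt f z) {C : ℝ≥0∞} (hC : C ≠ ⊤)
    (h : ∀ S : ℕ, ∫⁻ w in W, ENNReal.ofReal (f w * wP s a S w ^ (-c)) ∂D.ν ≤ C) :
    f z ≤ 0 := by
  by_contra h0
  have h1 : 0 < f z := not_le.1 h0
  obtain ⟨N, hN', ho, hzN⟩ := mem_nhds_iff.1 (inter_mem (hW.mem_nhds hz)
    (hf.eventually_const_lt (half_lt_self h1)))
  have h2 := lint_limit (D := D) (a := a) (C := C) ho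
    (fun i => (hs i).mono fun w hw => (hN' hw).1) hc (f := fun _ => f z / 2) continuousOn_const
    fun S => le_trans (setLIntegral_mono' ho.measurableSet fun w hw => ENNReal.ofReal_le_ofReal
      (mul_le_mul_of_nonneg_right (le_of_lt (hN' hw).2) (Real.rpow_nonneg (wP_pos s a w S).le _)))
      ((lintegral_mono_set fun w hw => (hN' hw).1).trans (h S))
  rw [lintegral_const_mul' _ _ ENNReal.ofReal_ne_top, hN N (ho.mem_nhds hzN),
    ENNReal.mul_top (ENNReal.ofReal_pos.2 (half_pos h1)).ne'] at h2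
  exact hC (top_le_iff.1 h2)

end EtDom

end Vale.Agent.P271
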